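import Mathlib

/-! Approximately spreadable random increasing sequences (tower construction). -/

namespace Vale.Agent.P125

open Finset

theorem card_coord_mem {ι α : Type} [Fintype ι] [DecidableEq ι] [Fintype α] [DecidableEq α]
    (i : ι) (T : Finset α) :
    (univ.filter (fun U : ι → α => U i ∈ T)).card * Fintype.card α
      = T.card * Fintype.card (ι → α) := by
  classical
  let e := Equiv.piSplitAt i (fun _ : ι => α)
  have h1 : (univ.filter (fun U : ι → α => U i ∈ T)).card
      = (T ×ˢ (univ : Finset ({j // j ≠ i} → α))).card := by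
    apply Finset.card_bij (fun U _ => e U)
    · intro U hU
      simp only [mem_filter, mem_univ, true_and] at hU
      simp [e, hU]
    · intro U _ U' _ h
      exact e.injective h
    · intro b hb
      refine ⟨e.symm b, ?_, by simp⟩
      simp only [mem_product, mem_univ, and_true] at hb
      simp [e, Equiv.piSplitAt, hb]
  have h2 : Fintype.card (ι → α) = Fintype.card α * Fintype.card ({j // j ≠ i} → α) := by
    rw [Fintype.card_congr e, Fintype.card_prod]
  rw [h1, h2, card_product, card_univ]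
  ring

/-- value of a coordinate, extended by zero -/
def uval {n Q : ℕ} (U : Fin n → ZMod Q) (l : ℕ) : ℕ :=
  if h : l < n then (U ⟨l, h⟩).val else 0

/-- scales -/
def kap (z : ℕ → ℕ) : ℕ → ℕ
  | 0 => 0
  | l + 1 => z l + 1

theorem kap_lt {z : ℕ → ℕ} (hz : StrictMono z) (l : ℕ) : kap z l + 1 ≤ kap z (l + 1) := by
  cases l with
  | zero => simp [kap]
  | succ l => simp only [kap]; have := hz (show l < l + 1 by omega); omega

theorem gap_bound {B S k k' u : ℕ} (hB : 1 ≤ B) (hu : u < B ^ S) (hk : k + 1 ≤ k') (hk' : k' ≤ S) :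
    (1 + u / B ^ k') * B ^ k ≤ B ^ (S - 1) := by
  have h1 : u / B ^ k' < B ^ (S - k') := by
    rw [Nat.div_lt_iff_lt_mul (by positivity), ← pow_add]
    have : S - k' + k' = S := by omega
    rwa [this]
  calc (1 + u / B ^ k') * B ^ k ≤ B ^ (S - k') * B ^ k := by
        apply Nat.mul_le_mul_right; omega
    _ = B ^ (S - k' + k) := by rw [pow_add]
    _ ≤ B ^ (S - 1) := Nat.pow_le_pow_right hB (by omega)

theorem spread_elem (B : ℕ) (hB : 1 ≤ B) (r : ℕ) :
    ∃ (Ω : Type) (_ : Fintype Ω) (_ : Nonempty Ω) (y : Ω → ℕ → ℕ),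
      (∀ ω, StrictMono (y ω)) ∧ ∀ a, ∃ σ : Ω ≃ Ω, ∃ bad : Finset Ω,
        B * bad.card ≤ 2 * r * Fintype.card Ω ∧ ∀ ω, ω ∉ bad →
          (∀ i, i < r → i ≠ a → i ≠ a + 1 → y (σ ω) i = y ω i) ∧
          (a + 1 < r → y (σ ω) (a + 1) = y ω a) := by
  classical
  induction r with
  | zero =>
    refine ⟨Unit, inferInstance, inferInstance, fun _ i => i, fun _ => strictMono_id, fun a =>
      ⟨Equiv.refl _, ∅, by simp, fun ω _ => ⟨fun _ _ _ _ => rfl, fun h => by omega⟩⟩⟩
  | succ r ih =>
    obtain ⟨Ω, _, _, z, hz, hE⟩ := ih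
    obtain ⟨S, hS⟩ : ∃ S : ℕ, ∀ ω, z ω (r + 1) + 2 ≤ S :=
      ⟨univ.sup (fun ω => z ω (r + 1) + 2), fun ω =>
        Finset.le_sup (f := fun ω => z ω (r + 1) + 2) (mem_univ ω)⟩
    have hkS : ∀ ω l, l ≤ r + 1 → kap (z ω) l ≤ S := by
      intro ω l hl
      cases l with
      | zero => simp [kap]
      | succ l =>
        have := (hz ω).monotone (show l ≤ r + 1 by omega)
        have := hS ω
        simp only [kap]; omega
    have hS1 : 1 ≤ S := by
      obtain ⟨ω⟩ := (inferInstance : Nonempty Ω)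
      have := hS ω; omega
    set Q := B ^ S with hQ
    have hQpos : 0 < Q := by positivity
    have : NeZero Q := ⟨hQpos.ne'⟩
    let d : Ω × (Fin (r + 2) → ZMod Q) → ℕ → ℕ :=
      fun w l => 1 + uval w.2 l / B ^ kap (z w.1) l
    let y : Ω × (Fin (r + 2) → ZMod Q) → ℕ → ℕ := fun w i => ∑ l ∈ range (i + 1), d w l
    refine ⟨Ω × (Fin (r + 2) → ZMod Q), inferInstance, inferInstance, y, ?_, ?_⟩
    · intro w
      apply strictMono_nat_of_lt_succ
      intro i
      simp only [y]
      rw [sum_range_succ _ (i + 1)]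
      have : 1 ≤ d w (i + 1) := Nat.le_add_right _ _
      omega
    intro a
    by_cases har : a < r
    swap
    · exact ⟨Equiv.refl _, ∅, by simp, fun ω _ => ⟨fun _ _ _ _ => rfl, fun h => by omega⟩⟩
    obtain ⟨σ, bad, hbad, hσ⟩ := hE a
    let i0 : Fin (r + 2) := ⟨a, by omega⟩
    let i1 : Fin (r + 2) := ⟨a + 1, by omega⟩
    let i2 : Fin (r + 2) := ⟨a + 2, by omega⟩
    have h01 : i0 ≠ i1 := by simp [i0, i1, Fin.ext_iff]
    have h02 : i0 ≠ i2 := by simp [i0, i2, Fin.ext_iff]
    have h12 : i1 ≠ i2 := by simp [i1, i2, Fin.ext_iff]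
    let m0 : Ω → ZMod Q → ℕ := fun ω u =>
      (1 + u.val / B ^ kap (z (σ ω)) (a + 1)) * B ^ kap (z (σ ω)) a
    let m1 : Ω → ZMod Q → ℕ := fun ω u =>
      (1 + u.val / B ^ kap (z ω) (a + 2)) * B ^ kap (z ω) (a + 1)
    let F : Ω × (Fin (r + 2) → ZMod Q) → Ω × (Fin (r + 2) → ZMod Q) := fun w =>
      (σ w.1, fun l => if l = i0 then w.2 i0 - (m0 w.1 (w.2 i2) : ℕ)
        else if l = i1 then w.2 i2
        else if l = i2 then w.2 i1 + (m1 w.1 (w.2 i2) : ℕ) else w.2 l)
    have hF0 : ∀ w, (F w).2 i0 = w.2 i0 - (m0 w.1 (w.2 i2) : ℕ) := by intro w; simp [F]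
    have hF1 : ∀ w, (F w).2 i1 = w.2 i2 := by intro w; simp [F, h01.symm]
    have hF2 : ∀ w, (F w).2 i2 = w.2 i1 + (m1 w.1 (w.2 i2) : ℕ) := by
      intro w; simp [F, h02.symm, h12.symm]
    have hF3 : ∀ w l, l ≠ i0 → l ≠ i1 → l ≠ i2 → (F w).2 l = w.2 l := by
      intro w l a0 a1 a2; simp [F, a0, a1, a2]
    have hFinj : Function.Injective F := by
      rintro ⟨ω, U⟩ ⟨ω', U'⟩ h
      have e1 : ω = ω' := σ.injective (congrArg Prod.fst h)
      subst e1
      have e2 : U i2 = U' i2 := by
        have := hF1 (ω, U); rw [h, hF1] at this; exact this.symm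
      have e0 : U i0 = U' i0 := by
        have := hF0 (ω, U); rw [h, hF0] at this
        simp only [e2] at this
        exact (sub_left_injective this).symm
      have e1 : U i1 = U' i1 := by
        have := hF2 (ω, U); rw [h, hF2] at this
        simp only [e2] at this
        exact (add_right_cancel this).symm
      congr 1
      funext l
      by_cases a0 : l = i0
      · rw [a0, e0]
      by_cases a1 : l = i1
      · rw [a1, e1]
      by_cases a2 : l = i2
      · rw [a2, e2]
      have := hF3 (ω, U) l a0 a1 a2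
      rw [h, hF3 _ _ a0 a1 a2] at this
      exact this.symm
    let T0 : Finset (ZMod Q) := univ.filter (fun u => u.val < B ^ (S - 1))
    let T1 : Finset (ZMod Q) := univ.filter (fun u => Q ≤ u.val + B ^ (S - 1))
    have hBQ : B * B ^ (S - 1) = Q := by
      rw [hQ, ← pow_succ']; congr 1; omega
    have hT0 : T0.card ≤ B ^ (S - 1) := by
      have : T0.card ≤ (range (B ^ (S - 1))).card := by
        apply Finset.card_le_card_of_injOn (fun u => u.val)
        · intro u hu; simpa [T0] using hu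
        · intro u _ v _ h; exact ZMod.val_injective Q h
      simpa using this
    have hT1 : T1.card ≤ B ^ (S - 1) := by
      have : T1.card ≤ (range (B ^ (S - 1))).card := by
        apply Finset.card_le_card_of_injOn (fun u => Q - 1 - u.val)
        · intro u hu
          have h1 : Q ≤ u.val + B ^ (S - 1) := by simpa [T1] using hu
          have h2 := ZMod.val_lt u
          simp only [coe_range, Set.mem_Iio]; omega
        · intro u _ v _ h
          have h2 := ZMod.val_lt u
          have h3 := ZMod.val_lt v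
          apply ZMod.val_injective Q
          simp only at h; omega
      simpa using this
    let C0 := univ.filter (fun U : Fin (r + 2) → ZMod Q => U i0 ∈ T0)
    let C1 := univ.filter (fun U : Fin (r + 2) → ZMod Q => U i1 ∈ T1)
    have hC : ∀ (i : Fin (r + 2)) (T : Finset (ZMod Q)), T.card ≤ B ^ (S - 1) →
        B * (univ.filter (fun U : Fin (r + 2) → ZMod Q => U i ∈ T)).card
          ≤ Fintype.card (Fin (r + 2) → ZMod Q) := by
      intro i T hT
      have h := card_coord_mem i T
      rw [ZMod.card] at h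
      apply Nat.le_of_mul_le_mul_right _ hQpos
      calc B * (univ.filter (fun U : Fin (r + 2) → ZMod Q => U i ∈ T)).card * Q
          = B * T.card * Fintype.card (Fin (r + 2) → ZMod Q) := by
            rw [mul_assoc, h, mul_assoc]
        _ ≤ B * B ^ (S - 1) * Fintype.card (Fin (r + 2) → ZMod Q) := by gcongr
        _ = _ := by rw [hBQ, mul_comm]
    refine ⟨Equiv.ofBijective F (Finite.injective_iff_bijective.mp hFinj),
      bad ×ˢ univ ∪ univ ×ˢ C0 ∪ univ ×ˢ C1, ?_, ?_⟩
    · have c0 := hC i0 T0 hT0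
      have c1 := hC i1 T1 hT1
      have hu : (bad ×ˢ (univ : Finset (Fin (r + 2) → ZMod Q)) ∪ univ ×ˢ C0 ∪ univ ×ˢ C1).card
          ≤ bad.card * Fintype.card (Fin (r + 2) → ZMod Q) + Fintype.card Ω * C0.card
            + Fintype.card Ω * C1.card := by
        refine (card_union_le _ _).trans ?_
        refine Nat.add_le_add ((card_union_le _ _).trans ?_) ?_
        · simp only [card_product, card_univ]; rfl
        · simp only [card_product, card_univ]; rfl
      rw [Fintype.card_prod]
      calc _ ≤ B * (bad.card * Fintype.card (Fin (r + 2) → ZMod Q) + Fintype.card Ω * C0.card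
            + Fintype.card Ω * C1.card) := Nat.mul_le_mul_left _ hu
        _ = (B * bad.card) * Fintype.card (Fin (r + 2) → ZMod Q) + Fintype.card Ω * (B * C0.card)
            + Fintype.card Ω * (B * C1.card) := by ring
        _ ≤ (2 * r * Fintype.card Ω) * Fintype.card (Fin (r + 2) → ZMod Q)
            + Fintype.card Ω * Fintype.card (Fin (r + 2) → ZMod Q)
            + Fintype.card Ω * Fintype.card (Fin (r + 2) → ZMod Q) := by gcongr
        _ = _ := by ring
    rintro ⟨ω, U⟩ hw
    simp only [mem_union, mem_product, mem_univ, and_true, true_and, not_or, C0, C1, T0, T1,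
      mem_filter, not_lt, not_le] at hw
    obtain ⟨⟨hωb, hU0⟩, hU1⟩ := hw
    obtain ⟨hσ1, hσ2⟩ := hσ ω hωb
    simp only [Equiv.ofBijective_apply]
    -- scales agree
    have hk : ∀ l, l ≤ r → l ≠ a + 1 → l ≠ a + 2 → kap (z (σ ω)) l = kap (z ω) l := by
      intro l hl h1 h2
      cases l with
      | zero => rfl
      | succ l => simp only [kap]; rw [hσ1 l (by omega) (by omega) (by omega)]
    have hFfst : (F (ω, U)).1 = σ ω := rfl
    have hd : ∀ l, l ≤ r → l ≠ a → l ≠ a + 1 → l ≠ a + 2 → d (F (ω, U)) l = d (ω, U) l := by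
      intro l hl h0 h1 h2
      simp only [d, hFfst]
      rw [hk l hl h1 h2]
      have hl' : l < r + 2 := by omega
      simp only [uval, hl', dif_pos]
      rw [hF3 (ω, U) ⟨l, hl'⟩ (by simp [i0, Fin.ext_iff, h0]) (by simp [i1, Fin.ext_iff, h1])
        (by simp [i2, Fin.ext_iff, h2])]
    have hd01 : d (F (ω, U)) a + d (F (ω, U)) (a + 1) = d (ω, U) a := by
      have hl0 : a < r + 2 := by omega
      have hl1 : a + 1 < r + 2 := by omega
      simp only [d, hFfst, uval, hl0, hl1, dif_pos]
      have e0 := hF0 (ω, U)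
      have e1 := hF1 (ω, U)
      simp only [i0, i1] at e0 e1
      rw [e0, e1]
      have hm : m0 ω (U i2) ≤ B ^ (S - 1) :=
        gap_bound hB (ZMod.val_lt _) (kap_lt (hz _) a) (hkS _ _ (by omega))
      have hmQ : m0 ω (U i2) < Q := lt_of_le_of_lt (hm.trans hU0) (ZMod.val_lt _)
      have hv : (U i0 - (m0 ω (U i2) : ℕ)).val = (U i0).val - m0 ω (U i2) := by
        rw [ZMod.val_sub]
        · rw [ZMod.val_natCast, Nat.mod_eq_of_lt hmQ]
        · rw [ZMod.val_natCast, Nat.mod_eq_of_lt hmQ]; exact hm.trans hU0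
      simp only [i0] at hv hU0
      rw [hv, ← hk a (by omega) (by omega) (by omega)]
      have hle := hm.trans hU0
      simp only [m0] at hle ⊢
      generalize (1 + (U i2).val / B ^ kap (z (σ ω)) (a + 1)) = D at hle ⊢
      have hpos : 0 < B ^ kap (z (σ ω)) a := by positivity
      have := Nat.sub_mul_div (U ⟨a, hl0⟩).val (B ^ kap (z (σ ω)) a) D
      rw [mul_comm] at this
      have h3 : D ≤ (U ⟨a, hl0⟩).val / B ^ kap (z (σ ω)) a :=
        (Nat.le_div_iff_mul_le hpos).mpr hle
      omega
    have hd2 : a + 1 < r → d (F (ω, U)) (a + 2) = d (ω, U) (a + 1) + d (ω, U) (a + 2) := by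
      intro h
      have hl1 : a + 1 < r + 2 := by omega
      have hl2 : a + 2 < r + 2 := by omega
      simp only [d, hFfst, uval, hl1, hl2, dif_pos]
      have e2 := hF2 (ω, U)
      simp only [i1, i2] at e2
      rw [e2]
      have hm : m1 ω (U i2) ≤ B ^ (S - 1) :=
        gap_bound hB (ZMod.val_lt _) (kap_lt (hz _) (a + 1)) (hkS _ _ (by omega))
      have hmQ : m1 ω (U i2) < Q := by omega
      have hv : (U i1 + (m1 ω (U i2) : ℕ)).val = (U i1).val + m1 ω (U i2) := by
        rw [ZMod.val_add_of_lt]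
        · rw [ZMod.val_natCast, Nat.mod_eq_of_lt hmQ]
        · rw [ZMod.val_natCast, Nat.mod_eq_of_lt hmQ]; omega
      simp only [i1, i2] at hv
      have hk2 : kap (z (σ ω)) (a + 2) = kap (z ω) (a + 1) := by
        simp only [kap]; rw [hσ2 h]
      rw [hv, hk2]
      simp only [m1]
      have hpos : 0 < B ^ kap (z ω) (a + 1) := by positivity
      rw [Nat.add_mul_div_right _ _ hpos]
      omega
    have hlow : ∑ l ∈ range a, d (F (ω, U)) l = ∑ l ∈ range a, d (ω, U) l := by
      apply sum_congr rfl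
      intro l hl
      have := mem_range.mp hl
      exact hd l (by omega) (by omega) (by omega) (by omega)
    have hmid : y (F (ω, U)) (a + 1) = y (ω, U) a := by
      simp only [y]
      rw [sum_range_succ _ (a + 1), sum_range_succ _ a, sum_range_succ _ a, hlow]
      omega
    refine ⟨?_, fun _ => hmid⟩
    intro i hi h0 h1
    rcases lt_or_gt_of_ne h0 with hlt | hgt
    · simp only [y]
      apply sum_congr rfl
      intro l hl
      have := mem_range.mp hl
      exact hd l (by omega) (by omega) (by omega) (by omega)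
    · obtain ⟨k, rfl⟩ : ∃ k, i = a + 2 + k := ⟨i - (a + 2), by omega⟩
      clear h0 h1 hgt
      induction k with
      | zero =>
        have := hd2 (by omega)
        simp only [y, add_zero] at hmid ⊢
        rw [sum_range_succ _ (a + 2), hmid, sum_range_succ _ (a + 2), sum_range_succ _ (a + 1)]
        omega
      | succ k ihk =>
        have := ihk (by omega)
        simp only [y] at this ⊢
        rw [← add_assoc, sum_range_succ _ (a + 2 + k + 1), this, sum_range_succ _ (a + 2 + k + 1),
          hd _ (by omega) (by omega) (by omega) (by omega)]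

/-- approximate equality in law, witnessed by a bijection -/
def NearBij {Ω H : Type} (F G : Ω → H) (e : ℕ) : Prop :=
  ∃ σ : Ω ≃ Ω, ∃ bad : Finset Ω, bad.card ≤ e ∧ ∀ ω, ω ∉ bad → F ω = G (σ ω)

theorem NearBij.symm {Ω H : Type} {F G : Ω → H} {e : ℕ} (h : NearBij F G e) : NearBij G F e := by
  obtain ⟨σ, bad, hb, h⟩ := h
  refine ⟨σ.symm, bad.map σ.toEmbedding, by simpa using hb, fun ω hω => ?_⟩
  have : σ.symm ω ∉ bad := by
    intro hm; apply hω
    simpa using hm
  rw [h _ this]; simp

theorem NearBij.trans {Ω H : Type} {F G K : Ω → H} {e e' : ℕ} (h : NearBij F G e)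
    (h' : NearBij G K e') : NearBij F K (e + e') := by
  classical
  obtain ⟨σ, bad, hb, h⟩ := h
  obtain ⟨σ', bad', hb', h'⟩ := h'
  refine ⟨σ.trans σ', bad ∪ bad'.map σ.symm.toEmbedding, ?_, fun ω hω => ?_⟩
  · refine (card_union_le _ _).trans ?_
    simp only [card_map]; omega
  · simp only [mem_union, not_or] at hω
    have : σ ω ∉ bad' := by
      intro hm; apply hω.2
      simpa using hm
    rw [h _ hω.1, h' _ this]; rfl

theorem NearBij.mono {Ω H : Type} {F G : Ω → H} {e e' : ℕ} (h : NearBij F G e) (he : e ≤ e') :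
    NearBij F G e' := by
  obtain ⟨σ, bad, hb, h⟩ := h
  exact ⟨σ, bad, hb.trans he, h⟩

/-- strictly increasing below `j` -/
def IncBelow (j : ℕ) (A : ℕ → ℕ) : Prop := ∀ l l', l < l' → l' < j → A l < A l'

theorem IncBelow.le_self {j : ℕ} {A : ℕ → ℕ} (h : IncBelow j A) : ∀ l, l < j → l ≤ A l := by
  intro l
  induction l with
  | zero => intro _; exact Nat.zero_le _
  | succ l ih =>
    intro hl
    have := h l (l + 1) (by omega) hl
    have := ih (by omega)
    omega

theorem nearBij_id {Ω : Type} (r e j : ℕ) (y : Ω → ℕ → ℕ)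
    (hE : ∀ a, ∃ σ : Ω ≃ Ω, ∃ bad : Finset Ω, bad.card ≤ e ∧ ∀ ω, ω ∉ bad →
          (∀ i, i < r → i ≠ a → i ≠ a + 1 → y (σ ω) i = y ω i) ∧
          (a + 1 < r → y (σ ω) (a + 1) = y ω a)) :
    ∀ (n : ℕ) (A : ℕ → ℕ), IncBelow j A → (∀ l, l < j → A l < r) → ∑ l ∈ range j, A l ≤ n →
      NearBij (fun ω (l : Fin j) => y ω (A l)) (fun ω (l : Fin j) => y ω l) (n * e) := by
  classical
  intro n
  induction n with
  | zero =>
    intro A hA hr hs
    refine ⟨Equiv.refl _, ∅, by simp, fun ω _ => ?_⟩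
    funext l
    have h1 : A l ≤ ∑ l ∈ range j, A l :=
      single_le_sum (f := A) (fun _ _ => Nat.zero_le _) (mem_range.mpr l.2)
    have h2 := hA.le_self l l.2
    simp only [Equiv.refl_apply]
    congr 1; omega
  | succ n ih =>
    intro A hA hr hs
    by_cases hid : ∀ l, l < j → A l = l
    · refine ⟨Equiv.refl _, ∅, by simp, fun ω _ => ?_⟩
      funext l
      simp [hid l l.2]
    push Not at hid
    let l0 := Nat.find hid
    have hl0 : l0 < j ∧ A l0 ≠ l0 := Nat.find_spec hid
    have hmin : ∀ l, l < l0 → A l = l := by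
      intro l hl
      have := Nat.find_min hid hl
      push Not at this
      exact this (by omega)
    have hge := hA.le_self l0 hl0.1
    obtain ⟨a, ha⟩ : ∃ a, A l0 = a + 1 := ⟨A l0 - 1, by omega⟩
    let A' := Function.update A l0 a
    have hA'0 : A' l0 = a := by simp [A']
    have hA'1 : ∀ l, l ≠ l0 → A' l = A l := by intro l hl; simp [A', hl]
    have hinc : IncBelow j A' := by
      intro l l' h h'
      have := hA l l' h h'
      by_cases c : l = l0
      · subst c; rw [hA'0, hA'1 l' (by omega)]; omega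
      by_cases c' : l' = l0
      · subst c'; rw [hA'0, hA'1 l c, hmin l h]; omega
      rw [hA'1 l c, hA'1 l' c']; exact this
    have hr' : ∀ l, l < j → A' l < r := by
      intro l hl
      by_cases c : l = l0
      · subst c; rw [hA'0]; have := hr _ hl; omega
      · rw [hA'1 l c]; exact hr l hl
    have hsum : ∑ l ∈ range j, A' l ≤ n := by
      have : ∑ l ∈ range j, A' l < ∑ l ∈ range j, A l := by
        apply sum_lt_sum
        · intro l _
          by_cases c : l = l0
          · subst c; omega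
          · rw [hA'1 l c]
        · exact ⟨l0, mem_range.mpr hl0.1, by omega⟩
      omega
    have step : NearBij (fun ω (l : Fin j) => y ω (A' l)) (fun ω (l : Fin j) => y ω (A l)) e := by
      obtain ⟨σ, bad, hb, hσ⟩ := hE a
      refine ⟨σ, bad, hb, fun ω hω => ?_⟩
      obtain ⟨h1, h2⟩ := hσ ω hω
      funext l
      by_cases c : (l : ℕ) = l0
      · simp only [c, hA'0, ha]
        rw [h2]; have := hr _ hl0.1; omega
      · simp only [hA'1 _ c]
        rw [h1 _ (hr _ l.2)]
        · rcases lt_or_gt_of_ne c with c | c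
          · rw [hmin _ c]; omega
          · have := hA _ _ c l.2; omega
        · rcases lt_or_gt_of_ne c with c | c
          · rw [hmin _ c]; omega
          · have := hA _ _ c l.2; omega
    have := step.symm.trans (ih A' hinc hr' hsum)
    exact this.mono (by rw [Nat.succ_mul]; omega)

theorem spread (r : ℕ) (ε : ℝ) (hε : 0 < ε) :
    ∃ (Ω : Type) (_ : Fintype Ω) (_ : Nonempty Ω) (y : Ω → ℕ → ℕ),
      (∀ ω, StrictMono (y ω)) ∧ ∀ (j : ℕ) (A A' : ℕ → ℕ), IncBelow j A → IncBelow j A' →
        (∀ l, l < j → A l < r) → (∀ l, l < j → A' l < r) →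
        ∃ σ : Ω ≃ Ω, ∃ bad : Finset Ω, (bad.card : ℝ) ≤ ε * Fintype.card Ω ∧
          ∀ ω, ω ∉ bad → ∀ l, l < j → y ω (A l) = y (σ ω) (A' l) := by
  obtain ⟨B, hB⟩ := exists_nat_gt (4 * (r : ℝ) ^ 3 / ε)
  have hB0 : (0 : ℝ) < B := lt_of_le_of_lt (by positivity) hB
  have hB1 : 1 ≤ B := by exact_mod_cast hB0
  obtain ⟨Ω, _, _, y, hy, hE⟩ := spread_elem B hB1 r
  refine ⟨Ω, inferInstance, inferInstance, y, hy, ?_⟩
  intro j A A' hA hA' hr hr'
  let e := 2 * r * Fintype.card Ω / B
  have hE' : ∀ a, ∃ σ : Ω ≃ Ω, ∃ bad : Finset Ω, bad.card ≤ e ∧ ∀ ω, ω ∉ bad →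
          (∀ i, i < r → i ≠ a → i ≠ a + 1 → y (σ ω) i = y ω i) ∧
          (a + 1 < r → y (σ ω) (a + 1) = y ω a) := by
    intro a
    obtain ⟨σ, bad, hb, h⟩ := hE a
    exact ⟨σ, bad, (Nat.le_div_iff_mul_le hB1).mpr (by rwa [mul_comm]), h⟩
  have hj : j ≤ r := by
    rcases Nat.eq_zero_or_pos j with h | h
    · omega
    · have := hA.le_self (j - 1) (by omega)
      have := hr (j - 1) (by omega)
      omega
  have hs : ∀ A : ℕ → ℕ, (∀ l, l < j → A l < r) → ∑ l ∈ range j, A l ≤ r * r := by
    intro A h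
    calc ∑ l ∈ range j, A l ≤ ∑ l ∈ range j, r :=
          sum_le_sum (fun l hl => (h l (mem_range.mp hl)).le)
      _ = j * r := by simp
      _ ≤ r * r := Nat.mul_le_mul_right _ hj
  obtain ⟨σ, bad, hb, h⟩ := (nearBij_id r e j y hE' _ A hA hr (hs A hr)).trans
    (nearBij_id r e j y hE' _ A' hA' hr' (hs A' hr')).symm
  refine ⟨σ, bad, ?_, fun ω hω l hl => congrFun (h ω hω) ⟨l, hl⟩⟩
  have he : (e : ℝ) ≤ 2 * r * Fintype.card Ω / B := by
    have := @Nat.cast_div_le ℝ _ _ _ (2 * r * Fintype.card Ω) B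
    simpa [e] using this
  have hb' : (bad.card : ℝ) ≤ r * r * e + r * r * e := by exact_mod_cast hb
  have hc : (0 : ℝ) ≤ Fintype.card Ω := by positivity
  have h4 : 4 * (r : ℝ) ^ 3 / B ≤ ε := by
    rw [div_le_iff₀ hB0]; rw [div_lt_iff₀ hε] at hB; linarith
  calc (bad.card : ℝ) ≤ 2 * r * r * e := by linarith
    _ ≤ 2 * r * r * (2 * r * Fintype.card Ω / B) := by gcongr
    _ = 4 * (r : ℝ) ^ 3 / B * Fintype.card Ω := by ring
    _ ≤ _ := by gcongr

end Vale.Agent.P125
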