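import Vale.Agent.P125.Cocycle
import Vale.Agent.P125.Spread

/-! A spreading invariant cost with threshold lower bounds cannot have Markov type `p > 1`. -/

namespace Vale.Agent.P125

open Finset

/-- tail sums -/
noncomputable def tail (c : ℕ) : (ℕ →₀ ℝ) →ₗ[ℝ] ℝ :=
  Finsupp.linearCombination ℝ (fun i => if c ≤ i then (1 : ℝ) else 0)

/-- a coefficient pattern placed at given positions -/
noncomputable def vec (L : ℕ) (b : ℕ → ℝ) (η : ℕ → ℕ) : ℕ →₀ ℝ :=
  ∑ x ∈ range L, Finsupp.single (η x) (b x)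

theorem tail_vec (c L : ℕ) (b : ℕ → ℝ) (η : ℕ → ℕ) :
    tail c (vec L b η) = ∑ x ∈ range L, if c ≤ η x then b x else 0 := by
  simp [tail, vec, map_sum]

theorem vec_self (b : ℕ →₀ ℝ) (L : ℕ) (hL : ∀ x ∈ b.support, x < L) : vec L b id = b := by
  ext i
  simp only [vec, id, Finsupp.coe_finsetSum, Finset.sum_apply, Finsupp.single_apply]
  rw [sum_ite_eq']
  split_ifs with h
  · rfl
  · by_contra hne
    exact h (mem_range.mpr (hL i (Finsupp.mem_support_iff.mpr (Ne.symm hne))))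

/-- alternating tail sums -/
def Alt (b : ℕ →₀ ℝ) (N : ℕ) : Prop :=
  ∃ (A : ℝ) (c : ℕ → ℕ), (∀ m, m < N → c m ≤ c (m + 1)) ∧
    ∀ m, m ≤ N → tail (c m) b = A + ((m % 2 : ℕ) : ℝ)

/-- the properties of the limiting cost -/
structure GoodCost (p C κ : ℝ) (Φ : (ℕ →₀ ℝ) → ℝ) : Prop where
  nonneg : ∀ a, 0 ≤ Φ a
  smul : ∀ (c : ℝ) a, Φ (c • a) = |c| ^ p * Φ a
  mt : MTIneq Φ C
  spread : ∀ L b η η', IncBelow L η → IncBelow L η' → Φ (vec L b η) = Φ (vec L b η')
  upper : ∀ L b η, Φ (vec L b η) ≤ (∑ x ∈ range L, |b x|) ^ p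
  lower : ∀ a c c', c ≤ c' → tail c' a = tail c a + 1 → κ ≤ Φ a

/-- block number -/
def blk (k i n : ℕ) : ℕ := 2 * (k * (n / 2) + i) + n % 2

/-- position -/
def pos (k L i n l : ℕ) : ℕ := blk k i n * L + l

theorem blk_lt_succ {k : ℕ} (hk : 1 ≤ k) (i n : ℕ) : blk k i n < blk k i (n + 1) := by
  unfold blk
  rcases Nat.mod_two_eq_zero_or_one n with h | h
  · have : (n + 1) / 2 = n / 2 := by omega
    rw [this]; omega
  · have : (n + 1) / 2 = n / 2 + 1 := by omega
    rw [this, mul_add k]; omega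

theorem blk_mono {k : ℕ} (hk : 1 ≤ k) (i : ℕ) : StrictMono (blk k i) :=
  strictMono_nat_of_lt_succ (blk_lt_succ hk i)

theorem pos_le {k L i j n n' l l' : ℕ} (h : blk k i n ≤ blk k j n') (hl : l ≤ l') :
    pos k L i n l ≤ pos k L j n' l' := by
  unfold pos
  have := Nat.mul_le_mul_right L h
  omega

theorem pos_lt {k L i j n n' l l' : ℕ} (h : blk k i n < blk k j n') (hl : l < L) :
    pos k L i n l < pos k L j n' l' := by
  unfold pos
  have := Nat.mul_le_mul_right L (Nat.succ_le_of_lt h)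
  rw [Nat.succ_mul] at this
  omega

/-- the gap between two consecutive blocks of one colour -/
def Gap (k L : ℕ) (y : ℕ → ℕ) (i n c : ℕ) : Prop :=
  y (pos k L i n (L - 1)) < c ∧ c ≤ y (pos k L i (n + 1) 0)

theorem Gap.sub {k L : ℕ} {y : ℕ → ℕ} (hy : StrictMono y) {i j n n' c : ℕ}
    (h1 : blk k j n' ≤ blk k i n) (h2 : blk k i (n + 1) ≤ blk k j (n' + 1))
    (h : Gap k L y i n c) : Gap k L y j n' c :=
  ⟨lt_of_le_of_lt (hy.monotone (pos_le h1 le_rfl)) h.1,
    h.2.trans (hy.monotone (pos_le h2 le_rfl))⟩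

theorem gap_nest {k L : ℕ} {y : ℕ → ℕ} (hy : StrictMono y) {i j : ℕ} (hi : i < k) (hj : j < k)
    (hij : i ≠ j) {n : ℕ} (hn1 : 1 ≤ n) :
    ∃ n', (n' = n + 1 ∨ n' + 1 = n) ∧
      (n % 2 = 0 → ∀ c, Gap k L y j n c → Gap k L y i n' c) ∧
      (n % 2 = 1 → ∀ c, Gap k L y i n' c → Gap k L y j n c) := by
  rcases Nat.mod_two_eq_zero_or_one n with h | h
  · obtain ⟨a, rfl⟩ : ∃ a, n = 2 * (a + 1) := ⟨n / 2 - 1, by omega⟩
    rcases lt_or_gt_of_ne hij with hlt | hlt
    · refine ⟨2 * (a + 1) + 1, Or.inl rfl, fun _ c hc => hc.sub hy ?_ ?_, fun h' => by omega⟩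
      · unfold blk
        rw [show (2 * (a + 1) + 1) / 2 = a + 1 by omega, show 2 * (a + 1) / 2 = a + 1 by omega]
        omega
      · unfold blk
        rw [show (2 * (a + 1) + 1) / 2 = a + 1 by omega,
          show (2 * (a + 1) + 1 + 1) / 2 = a + 1 + 1 by omega, mul_add k (a + 1) 1]
        omega
    · refine ⟨2 * a + 1, Or.inr (by omega), fun _ c hc => hc.sub hy ?_ ?_, fun h' => by omega⟩
      · unfold blk
        rw [show (2 * a + 1) / 2 = a by omega, show 2 * (a + 1) / 2 = a + 1 by omega,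
          mul_add k a 1]
        omega
      · unfold blk
        rw [show (2 * (a + 1) + 1) / 2 = a + 1 by omega,
          show (2 * a + 1 + 1) / 2 = a + 1 by omega]
        omega
  · obtain ⟨a, rfl⟩ : ∃ a, n = 2 * a + 1 := ⟨n / 2, by omega⟩
    rcases lt_or_gt_of_ne hij with hlt | hlt
    · refine ⟨2 * a + 1 + 1, Or.inl rfl, fun h' => by omega, fun _ c hc => hc.sub hy ?_ ?_⟩
      · unfold blk
        rw [show (2 * a + 1) / 2 = a by omega, show (2 * a + 1 + 1) / 2 = a + 1 by omega,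
          mul_add k a 1]
        omega
      · unfold blk
        rw [show (2 * a + 1 + 1 + 1) / 2 = a + 1 by omega,
          show (2 * a + 1 + 1) / 2 = a + 1 by omega]
        omega
    · refine ⟨2 * a, Or.inr rfl, fun h' => by omega, fun _ c hc => hc.sub hy ?_ ?_⟩
      · unfold blk
        rw [show (2 * a + 1) / 2 = a by omega, show (2 * a) / 2 = a by omega]
        omega
      · unfold blk
        rw [show (2 * a + 1) / 2 = a by omega,
          show (2 * a + 1 + 1) / 2 = a + 1 by omega, mul_add k a 1]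
        omega

/-- the invariant along a non-backtracking path -/
def Inv (k L W s : ℕ) (v : ℕ →₀ ℝ) (y : ℕ → ℕ) (i : ℕ) : Prop :=
  ∃ A : ℝ, ∀ n, 2 * s ≤ n → n + 2 * s < W →
    (n % 2 = 0 → ∃ c, Gap k L y i n c ∧ tail c v = A) ∧
    (n % 2 = 1 → ∀ c, Gap k L y i n c → tail c v = A - s)

theorem inv_zero {k L W : ℕ} (hk : 1 ≤ k) (hL : 1 ≤ L) {y : ℕ → ℕ} (hy : StrictMono y) (i : ℕ) :
    Inv k L W 0 0 y i := by
  refine ⟨0, fun n _ _ => ⟨fun _ => ⟨_, ⟨?_, le_rfl⟩, by simp⟩, fun _ c _ => by simp⟩⟩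
  exact hy (pos_lt (blk_lt_succ hk i n) (by omega))

theorem inv_step {k L W s : ℕ} {v G : ℕ →₀ ℝ} {y y' : ℕ → ℕ} (hy : StrictMono y) {i j : ℕ}
    (hi : i < k) (hj : j < k) (hij : i ≠ j) (h : Inv k L W s v y i)
    (hG : ∃ B : ℝ, ∀ n, 1 ≤ n → n < W → ∀ c, Gap k L y j n c → tail c G = B + ((n % 2 : ℕ) : ℝ))
    (hsh : (∀ n, n + 1 < W → ∀ c, Gap k L y' j n c ↔ Gap k L y j (n + 1) c) ∨
      (∀ n, n + 1 < W → ∀ c, Gap k L y' j (n + 1) c ↔ Gap k L y j n c)) :
    Inv k L W (s + 1) (v + G) y' j := by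
  obtain ⟨A, hA⟩ := h
  obtain ⟨B, hB⟩ := hG
  have mid : ∀ n, 2 * s + 1 ≤ n → n + (2 * s + 1) < W →
      (n % 2 = 1 → ∃ c, Gap k L y j n c ∧ tail c (v + G) = A + B + 1) ∧
      (n % 2 = 0 → ∀ c, Gap k L y j n c → tail c (v + G) = A + B + 1 - ((s + 1 : ℕ) : ℝ)) := by
    intro n h1 h2
    obtain ⟨n', hn', h3, h4⟩ := gap_nest (L := L) hy hi hj hij (show 1 ≤ n by omega)
    obtain ⟨h5, h6⟩ := hA n' (by omega) (by omega)
    constructor
    · intro hn
      obtain ⟨c, hc, hc'⟩ := h5 (by omega)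
      refine ⟨c, h4 hn c hc, ?_⟩
      rw [map_add, hc', hB n (by omega) (by omega) c (h4 hn c hc), hn]
      push_cast; ring
    · intro hn c hc
      rw [map_add, h6 (by omega) c (h3 hn c hc), hB n (by omega) (by omega) c hc, hn]
      push_cast; ring
  refine ⟨A + B + 1, fun n h1 h2 => ?_⟩
  rcases hsh with hsh | hsh
  · obtain ⟨h3, h4⟩ := mid (n + 1) (by omega) (by omega)
    constructor
    · intro hn
      obtain ⟨c, hc, hc'⟩ := h3 (by omega)
      exact ⟨c, (hsh n (by omega) c).mpr hc, hc'⟩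
    · intro hn c hc
      exact h4 (by omega) c ((hsh n (by omega) c).mp hc)
  · obtain ⟨m, rfl⟩ : ∃ m, n = m + 1 := ⟨n - 1, by omega⟩
    obtain ⟨h3, h4⟩ := mid m (by omega) (by omega)
    constructor
    · intro hn
      obtain ⟨c, hc, hc'⟩ := h3 (by omega)
      exact ⟨c, (hsh m (by omega) c).mpr hc, hc'⟩
    · intro hn c hc
      exact h4 (by omega) c ((hsh m (by omega) c).mp hc)

theorem inv_final {k L W t N' : ℕ} (hk : 1 ≤ k) (hL : 1 ≤ L) (ht : 1 ≤ t) (hW : N' + 4 * t < W)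
    {v : ℕ →₀ ℝ} {y : ℕ → ℕ} (hy : StrictMono y) {i : ℕ} (h : Inv k L W t v y i) :
    Alt ((-(1 / (t : ℝ))) • v) N' := by
  obtain ⟨A, hA⟩ := h
  have ht' : (t : ℝ) ≠ 0 := by positivity
  have : ∀ m, ∃ c, m ≤ N' → Gap k L y i (2 * t + m) c ∧
      tail c v = A - t * ((m % 2 : ℕ) : ℝ) := by
    intro m
    by_cases hm : m ≤ N'
    swap
    · exact ⟨0, fun h => absurd h hm⟩
    obtain ⟨h1, h2⟩ := hA (2 * t + m) (by omega) (by omega)
    rcases Nat.mod_two_eq_zero_or_one m with h | h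
    · obtain ⟨c, hc, hc'⟩ := h1 (by omega)
      exact ⟨c, fun _ => ⟨hc, by rw [hc', h]; simp⟩⟩
    · have hg : Gap k L y i (2 * t + m) (y (pos k L i (2 * t + m + 1) 0)) :=
        ⟨hy (pos_lt (blk_lt_succ hk i _) (by omega)), le_rfl⟩
      exact ⟨_, fun _ => ⟨hg, by rw [h2 (by omega) _ hg, h]; simp⟩⟩
  choose c hc using this
  refine ⟨-(A / t), c, fun m hm => ?_, fun m hm => ?_⟩
  · have h1 := (hc m hm.le).1.2
    have h2 := (hc (m + 1) hm).1.1
    have h3 : y (pos k L i (2 * t + m + 1) 0) ≤ y (pos k L i (2 * t + (m + 1)) (L - 1)) :=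
      hy.monotone (pos_le le_rfl (Nat.zero_le _))
    omega
  · rw [map_smul, (hc m hm).2, smul_eq_mul]
    field_simp
    ring

theorem mono_of_succ {c : ℕ → ℕ} {N : ℕ} (h : ∀ m, m < N → c m ≤ c (m + 1)) :
    ∀ m m', m ≤ m' → m' ≤ N → c m ≤ c m' := by
  intro m m' h1 h2
  induction m', h1 using Nat.le_induction with
  | base => exact le_rfl
  | succ n hn ih => exact (ih (by omega)).trans (h n (by omega))

/-- number of cut points at or below `x` -/
def cnt (c : ℕ → ℕ) (N x : ℕ) : ℕ := ((range (N + 1)).filter (fun m => c m ≤ x)).card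

theorem cnt_le (c : ℕ → ℕ) (N x : ℕ) : cnt c N x ≤ N + 1 := by
  unfold cnt
  simpa using card_filter_le (range (N + 1)) (fun m => c m ≤ x)

theorem cnt_mono (c : ℕ → ℕ) (N : ℕ) {x x' : ℕ} (h : x ≤ x') : cnt c N x ≤ cnt c N x' := by
  unfold cnt
  apply card_le_card
  intro m
  simp only [mem_filter]
  exact fun hm => ⟨hm.1, hm.2.trans h⟩

theorem cnt_ge {c : ℕ → ℕ} {N : ℕ} (h : ∀ m, m < N → c m ≤ c (m + 1)) {m x : ℕ} (hm : m ≤ N)
    (hx : c m ≤ x) : m + 1 ≤ cnt c N x := by
  unfold cnt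
  have : range (m + 1) ⊆ (range (N + 1)).filter (fun m => c m ≤ x) := by
    intro a ha
    simp only [mem_range, mem_filter] at ha ⊢
    exact ⟨by omega, (mono_of_succ h a m (by omega) hm).trans hx⟩
  simpa using card_le_card this

theorem cnt_lt {c : ℕ → ℕ} {N : ℕ} (h : ∀ m, m < N → c m ≤ c (m + 1)) {m x : ℕ}
    (hx : x < c m) : cnt c N x ≤ m := by
  unfold cnt
  have : (range (N + 1)).filter (fun m => c m ≤ x) ⊆ range m := by
    intro a ha
    simp only [mem_range, mem_filter] at ha ⊢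
    by_contra hlt
    have := mono_of_succ h m a (by omega) (by omega)
    omega
  simpa using card_le_card this

theorem tail_edge {k L N : ℕ} (hk : 1 ≤ k) {c : ℕ → ℕ} (h : ∀ m, m < N → c m ≤ c (m + 1))
    (b : ℕ → ℝ) {y : ℕ → ℕ} (hy : StrictMono y) (i δ m : ℕ) (hm : m ≤ N) {z : ℕ}
    (hz : Gap k L y i (m + δ) z) :
    tail z (vec L b (fun x => y (pos k L i (cnt c N x + δ) x))) = tail (c m) (vec L b id) := by
  rw [tail_vec, tail_vec]
  apply sum_congr rfl
  intro x hx
  have hx' := mem_range.mp hx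
  congr 1
  apply propext
  simp only [id]
  constructor
  · intro h1
    by_contra h2
    have h3 := cnt_lt h (not_le.mp h2)
    have : y (pos k L i (cnt c N x + δ) x) ≤ y (pos k L i (m + δ) (L - 1)) :=
      hy.monotone (pos_le ((blk_mono hk i).monotone (by omega)) (by omega))
    have := hz.1
    omega
  · intro h1
    have h3 := cnt_ge h hm h1
    exact hz.2.trans (hy.monotone (pos_le ((blk_mono hk i).monotone (by omega)) (Nat.zero_le _)))

set_option maxHeartbeats 1000000 in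
theorem chain_bound {p C κ : ℝ} {Φ : (ℕ →₀ ℝ) → ℝ} (hp : 0 < p) (hC : 0 ≤ C)
    (hΦ : GoodCost p C κ Φ) (t N N' : ℕ) (ht : 1 ≤ t) (hN : N' + 4 * t + 3 ≤ 2 * N)
    (b : ℕ →₀ ℝ) (hb : Alt b (2 * N - 3)) (T : ℝ) (hT0 : 0 ≤ T)
    (hT : ∀ v, Alt v N' → T ≤ Φ v) :
    (t : ℝ) ^ p * T / 2 ≤ 2 * C * t * Φ b := by
  classical
  obtain ⟨A0, c, hc, hcA⟩ := hb
  obtain ⟨L, hL1, hL⟩ : ∃ L, 1 ≤ L ∧ ∀ x ∈ b.support, x < L :=
    ⟨b.support.sup id + 1, by omega, fun x hx =>
      Nat.lt_succ_of_le (Finset.le_sup (f := id) hx)⟩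
  have hbv := vec_self b L hL
  set k := 4 * t with hk
  have hk1 : 1 ≤ k := by omega
  set W := 2 * N - 2 with hW
  have htr : (0 : ℝ) < t := by exact_mod_cast ht
  obtain ⟨Ω, _, _, y, hy, hsp⟩ := spread (2 * k * N * L) (1 / (4 * t)) (by positivity)
  have hex : ∀ i : Fin k, ∃ σ : Ω ≃ Ω, ∃ bad : Finset Ω,
      (bad.card : ℝ) ≤ 1 / (4 * t) * Fintype.card Ω ∧ ∀ ω, ω ∉ bad → ∀ n, n < 2 * N - 1 →
        ∀ l, l < L → y ω (pos k L i (n + 1) l) = y (σ ω) (pos k L i n l) := by
    intro i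
    have hinc : ∀ δ, IncBelow ((2 * N - 1) * L) (fun q => pos k L i (q / L + δ) (q % L)) := by
      intro δ q q' hq _
      have h1 : q / L ≤ q' / L := Nat.div_le_div_right hq.le
      rcases h1.lt_or_eq with h2 | h2
      · exact pos_lt (blk_mono hk1 i (by omega)) (Nat.mod_lt _ hL1)
      · have e1 := Nat.div_add_mod q L
        have e2 := Nat.div_add_mod q' L
        simp only [pos, h2] at e1 ⊢
        omega
    have hlt : ∀ δ, δ ≤ 1 → ∀ q, q < (2 * N - 1) * L →
        pos k L i (q / L + δ) (q % L) < 2 * k * N * L := by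
      intro δ hδ q hq
      have h1 : q / L < 2 * N - 1 := (Nat.div_lt_iff_lt_mul hL1).mpr hq
      have h2 : blk k i (q / L + δ) < blk k 0 (2 * N) := by
        have h3 : blk k i (q / L + δ) ≤ blk k i (2 * (N - 1) + 1) :=
          (blk_mono hk1 i).monotone (by omega)
        refine lt_of_le_of_lt h3 ?_
        obtain ⟨N1, rfl⟩ : ∃ N1, N = N1 + 1 := ⟨N - 1, by omega⟩
        unfold blk
        rw [show (2 * (N1 + 1 - 1) + 1) / 2 = N1 by omega,
          show (2 * (N1 + 1)) / 2 = N1 + 1 by omega, mul_add k N1 1]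
        have := i.2
        omega
      have h4 := pos_lt (l := q % L) (l' := 0) h2 (Nat.mod_lt _ hL1)
      refine lt_of_lt_of_le h4 (le_of_eq ?_)
      unfold pos blk
      rw [show 2 * N / 2 = N by omega, show 2 * N % 2 = 0 by omega]
      ring
    obtain ⟨σ, bad, h1, h2⟩ := hsp _ _ _ (hinc 1) (hinc 0) (hlt 1 le_rfl) (hlt 0 (by omega))
    refine ⟨σ, bad, h1, fun ω hω n hn l hl => ?_⟩
    have h3 : n * L + l < (2 * N - 1) * L := by
      have := Nat.mul_le_mul_right L (Nat.succ_le_of_lt hn)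
      rw [Nat.succ_mul] at this
      omega
    have := h2 ω hω (n * L + l) h3
    have e1 : (n * L + l) / L = n := by
      rw [add_comm, Nat.add_mul_div_right _ _ hL1, Nat.div_eq_of_lt hl, zero_add]
    have e2 : (n * L + l) % L = l := by
      rw [add_comm, Nat.add_mul_mod_self_right, Nat.mod_eq_of_lt hl]
    simpa only [e1, e2, add_zero] using this
  choose σ bad hbad hσ using hex
  let g : Fin k → Ω → (ℕ →₀ ℝ) := fun i ω =>
    -vec L b (fun x => y ω (pos k L i (cnt c (2 * N - 3) x + 1) x))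
  have hneg : ∀ a, Φ (-a) = Φ a := by
    intro a
    have := hΦ.smul (-1) a
    simpa using this
  have hg : ∀ i ω, Φ (g i ω) = Φ b := by
    intro i ω
    simp only [g]
    rw [hneg]
    conv_rhs => rw [← hbv]
    apply hΦ.spread
    · intro x x' hx hx'
      apply hy
      have := pos_le (k := k) (L := L) (i := i) (j := i) (l := x') (l' := x')
        ((blk_mono hk1 i).monotone
          (Nat.add_le_add_right (cnt_mono c (2 * N - 3) hx.le) 1)) le_rfl
      refine lt_of_lt_of_le ?_ this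
      unfold pos; omega
    · intro x x' hx _; exact hx
  have hU : ∀ j ω, Φ (binc σ g j ω) ≤ Φ b := by
    rintro ⟨i, bb⟩ ω
    cases bb
    · simp only [binc]; rw [hneg, hg]
    · simp only [binc]; rw [hg]
  have h0 : Φ 0 ≤ Φ b := by
    have := hΦ.smul 0 0
    simp only [smul_zero, abs_zero, Real.zero_rpow hp.ne', zero_mul] at this
    rw [this]; exact hΦ.nonneg b
  have : Nonempty (Fin k) := ⟨⟨0, hk1⟩⟩
  have hco := cocycle_bound hΦ.nonneg hC hΦ.mt σ g h0 hU t ht
  -- bad edges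
  let badI : Fin k × Bool → Ω → ℝ := fun j ω =>
    if (if j.2 then ω else (σ j.1).symm ω) ∈ bad j.1 then 1 else 0
  have hbadI0 : ∀ j ω, 0 ≤ badI j ω := by
    intro j ω; simp only [badI]; split_ifs <;> norm_num
  have hbadI : ∀ j, ∑ ω, badI j ω ≤ 1 / (4 * t) * Fintype.card Ω := by
    rintro ⟨i, bb⟩
    refine le_trans (le_of_eq ?_) (hbad i)
    cases bb
    · simp only [badI, Bool.false_eq_true, if_false]
      rw [Equiv.sum_comp (σ i).symm (fun ω => if ω ∈ bad i then (1 : ℝ) else 0)]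
      simp
    · simp [badI]
  let H : ℕ → Ω → ℝ := fun n => Nat.rec (fun _ => 0)
    (fun _ Hn ω => (∑ j : Fin k × Bool, (badI j ω + Hn (bmv σ j ω))) / Fintype.card (Fin k × Bool)) n
  have hH0 : ∀ ω, H 0 ω = 0 := fun _ => rfl
  have hHs : ∀ n ω, H (n + 1) ω =
      (∑ j : Fin k × Bool, (badI j ω + H n (bmv σ j ω))) / Fintype.card (Fin k × Bool) :=
    fun _ _ => rfl
  have hJ : (Fintype.card (Fin k × Bool) : ℝ) = 2 * k := by
    simp [mul_comm]
  have hkr : (0 : ℝ) < k := by exact_mod_cast hk1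
  have hHnn : ∀ n ω, 0 ≤ H n ω := by
    intro n
    induction n with
    | zero => intro ω; exact le_rfl
    | succ n ih =>
      intro ω
      rw [hHs]
      exact div_nonneg (sum_nonneg (fun j _ => add_nonneg (hbadI0 _ _) (ih _))) (by positivity)
  have hHsum : ∀ n, ∑ ω, H n ω ≤ n * (1 / (4 * t) * Fintype.card Ω) := by
    intro n
    induction n with
    | zero => simp [hH0]
    | succ n ih =>
      simp only [hHs]
      rw [← sum_div, sum_comm, div_le_iff₀ (by positivity)]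
      calc _ ≤ ∑ j : Fin k × Bool, ((n + 1 : ℕ) : ℝ) * (1 / (4 * t) * Fintype.card Ω) := by
            apply sum_le_sum
            intro j _
            rw [sum_add_distrib]
            have e : ∑ ω, H n (bmv σ j ω) = ∑ ω, H n ω := by
              obtain ⟨i, bb⟩ := j
              cases bb
              · exact Equiv.sum_comp (σ i).symm (H n)
              · exact Equiv.sum_comp (σ i) (H n)
            rw [e]
            have := hbadI j
            push_cast; linarith
        _ = _ := by rw [sum_const, card_univ, nsmul_eq_mul, mul_comm]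
  have hstep : ∀ (s : ℕ) (v : ℕ →₀ ℝ) (ω : Ω) (i : Fin k) (j : Fin k × Bool),
      Inv k L W s v (y ω) i → j.1 ≠ i → badI j ω = 0 →
      Inv k L W (s + 1) (v + binc σ g j ω) (y (bmv σ j ω)) j.1 := by
    rintro s v ω i ⟨j, bb⟩ hI hji hb0
    have hji' : (i : ℕ) ≠ (j : ℕ) := fun h => hji (Fin.ext h.symm)
    cases bb
    · have hnb : (σ j).symm ω ∉ bad j := by
        intro hm; simp [badI, hm] at hb0
      have hm := hσ j _ hnb
      simp only [Equiv.apply_symm_apply] at hm
      apply inv_step (hy ω) i.2 j.2 hji' hI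
      · refine ⟨A0, fun n h1 h2 z hz => ?_⟩
        have e : binc σ g (j, false) ω
            = vec L b (fun x => y ω (pos k L j (cnt c (2 * N - 3) x + 0) x)) := by
          simp only [binc, g, neg_neg, vec]
          apply sum_congr rfl
          intro x hx
          have := cnt_le c (2 * N - 3) x
          rw [hm _ (by omega) x (mem_range.mp hx), add_zero]
        rw [e, tail_edge hk1 hc b (hy ω) j 0 n (by omega) hz, hbv, hcA n (by omega)]
      · right
        intro n hn z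
        simp only [bmv, Gap]
        rw [hm n (by omega) _ (by omega), hm (n + 1) (by omega) _ (by omega)]
    · have hnb : ω ∉ bad j := by
        intro hm; simp [badI, hm] at hb0
      have hm := hσ j _ hnb
      apply inv_step (hy ω) i.2 j.2 hji' hI
      · refine ⟨-A0 - 1, fun n h1 h2 z hz => ?_⟩
        obtain ⟨m, rfl⟩ : ∃ m, n = m + 1 := ⟨n - 1, by omega⟩
        simp only [binc, g]
        rw [map_neg, tail_edge hk1 hc b (hy ω) j 1 m (by omega) hz, hbv, hcA m (by omega)]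
        rcases Nat.mod_two_eq_zero_or_one m with h | h
        · rw [h, show (m + 1) % 2 = 1 by omega]; push_cast; ring
        · rw [h, show (m + 1) % 2 = 0 by omega]; push_cast; ring
      · left
        intro n hn z
        simp only [bmv, Gap]
        rw [hm n (by omega) _ (by omega), hm (n + 1) (by omega) _ (by omega)]
  have hT' : 0 ≤ (t : ℝ) ^ p * T := by positivity
  have hmain : ∀ (n s : ℕ) (v : ℕ →₀ ℝ) (ω : Ω) (i : Fin k), s + n = t →
      Inv k L W s v (y ω) i → (t : ℝ) ^ p * T * (1 - n / k - H n ω) ≤ Psi Φ σ g n ω v := by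
    intro n
    induction n with
    | zero =>
      intro s v ω i hs hI
      rw [add_zero] at hs
      subst hs
      have hA := inv_final (N' := N') hk1 hL1 ht (by omega) (hy ω) hI
      have e : v = (-(s : ℝ)) • ((-(1 / (s : ℝ))) • v) := by
        rw [smul_smul]
        have : -(s : ℝ) * -(1 / (s : ℝ)) = 1 := by field_simp
        rw [this, one_smul]
      simp only [Psi, hH0, Nat.cast_zero, zero_div, sub_zero, mul_one]
      rw [e, hΦ.smul, abs_neg, abs_of_pos htr]
      exact mul_le_mul_of_nonneg_left (hT _ hA) (by positivity)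
    | succ n ih =>
      intro s v ω i hs hI
      simp only [Psi]
      rw [le_div_iff₀ (by positivity)]
      have hterm : ∀ j : Fin k × Bool,
          (t : ℝ) ^ p * T * (1 - n / k - (badI j ω + H n (bmv σ j ω))
            - (if j.1 = i then 1 else 0)) ≤ Psi Φ σ g n (bmv σ j ω) (v + binc σ g j ω) := by
        intro j
        have hn0 : (0 : ℝ) ≤ n / k := by positivity
        have h1 := hHnn n (bmv σ j ω)
        have h2 := hbadI0 j ω
        by_cases hji : j.1 = i
        · refine le_trans ?_ (Psi_nonneg hΦ.nonneg σ g n _ _)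
          apply mul_nonpos_of_nonneg_of_nonpos hT'
          rw [if_pos hji]; linarith
        by_cases hb0 : badI j ω = 0
        · have := ih (s + 1) _ _ _ (by omega) (hstep s v ω i j hI hji hb0)
          rw [if_neg hji, hb0, zero_add, sub_zero]
          exact this
        · refine le_trans ?_ (Psi_nonneg hΦ.nonneg σ g n _ _)
          apply mul_nonpos_of_nonneg_of_nonpos hT'
          have : badI j ω = 1 := by
            simp only [badI] at hb0 ⊢
            split_ifs at hb0 ⊢ <;> first | rfl | exact absurd rfl hb0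
          rw [if_neg hji, this]; linarith
      refine le_trans (le_of_eq ?_) (sum_le_sum (fun j _ => hterm j))
      rw [← mul_sum, mul_assoc _ (1 - _ - _)]
      congr 1
      have e2 : ∑ j : Fin k × Bool, (if j.1 = i then (1 : ℝ) else 0) = 2 := by
        rw [Fintype.sum_prod_type_right]
        simp only [sum_ite_eq', mem_univ, if_true]
        simp
      rw [sum_sub_distrib, sum_sub_distrib, e2, hHs, sum_const, card_univ, nsmul_eq_mul, hJ]
      push_cast
      field_simp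
      ring
  have hΩ : (0 : ℝ) < Fintype.card Ω := by positivity
  refine le_trans ?_ hco
  rw [le_div_iff₀ hΩ]
  have h1 : ∑ ω, (t : ℝ) ^ p * T * (1 - t / k - H t ω) ≤ ∑ ω, Psi Φ σ g t ω 0 :=
    sum_le_sum (fun ω _ => hmain t 0 0 ω ⟨0, hk1⟩ (by omega) (inv_zero hk1 hL1 (hy ω) _))
  refine le_trans ?_ h1
  rw [← mul_sum, sum_sub_distrib, sum_const, card_univ, nsmul_eq_mul]
  have h2 := hHsum t
  have h3 : (t : ℝ) / k = 1 / 4 := by rw [hk]; push_cast; field_simp
  have h4 : (t : ℝ) * (1 / (4 * t) * Fintype.card Ω) = Fintype.card Ω / 4 := by field_simp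
  rw [h3]
  rw [h4] at h2
  nlinarith

theorem alt_exists (N : ℕ) : Alt (vec N (fun x => (-1 : ℝ) ^ (x + 1)) id) N := by
  refine ⟨tail 0 (vec N (fun x => (-1 : ℝ) ^ (x + 1)) id), id, fun m _ => by simp, ?_⟩
  intro m
  induction m with
  | zero => intro _; simp
  | succ m ih =>
    intro hm
    have h1 := ih (by omega)
    have h2 : tail m (vec N (fun x => (-1 : ℝ) ^ (x + 1)) id)
        = tail (m + 1) (vec N (fun x => (-1 : ℝ) ^ (x + 1)) id) + (-1) ^ (m + 1) := by
      rw [tail_vec, tail_vec]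
      have : (-1 : ℝ) ^ (m + 1) = ∑ x ∈ range N, if x = m then (-1 : ℝ) ^ (x + 1) else 0 := by
        rw [sum_ite_eq']; simp [show m < N by omega]
      rw [this, ← sum_add_distrib]
      apply sum_congr rfl
      intro x _
      simp only [id]
      rcases lt_trichotomy x m with h | h | h
      · rw [if_neg (by omega), if_neg (by omega), if_neg (by omega)]; simp
      · rw [if_pos (by omega), if_neg (by omega), if_pos h]; simp
      · rw [if_pos (by omega), if_pos (by omega), if_neg (by omega)]; simp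
    simp only [id] at h1 ⊢
    rcases Nat.even_or_odd m with h | h
    · rw [Nat.even_iff.mp h] at h1
      rw [Nat.odd_iff.mp h.add_one, ]
      rw [h.add_one.neg_one_pow] at h2
      push_cast at h1 ⊢; linarith
    · rw [Nat.odd_iff.mp h] at h1
      rw [Nat.even_iff.mp h.add_one]
      rw [h.add_one.neg_one_pow] at h2
      push_cast at h1 ⊢; linarith

theorem not_goodCost {p C κ : ℝ} {Φ : (ℕ →₀ ℝ) → ℝ} (hp : 1 < p) (hC : 0 ≤ C) (hκ : 0 < κ)
    (hΦ : GoodCost p C κ Φ) : False := by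
  let Λ : ℕ → ℝ := fun N => sInf (Φ '' {b | Alt b N})
  have hne : ∀ N, (Φ '' {b | Alt b N}).Nonempty := fun N => ⟨_, _, alt_exists N, rfl⟩
  have hbdd : ∀ N, BddBelow (Φ '' {b | Alt b N}) := fun N =>
    ⟨0, by rintro _ ⟨b, _, rfl⟩; exact hΦ.nonneg b⟩
  have hle : ∀ N b, Alt b N → Λ N ≤ Φ b := fun N b hb => csInf_le (hbdd N) ⟨b, hb, rfl⟩
  have hup : ∀ N : ℕ, Λ N ≤ (N : ℝ) ^ p := by
    intro N
    refine (hle N _ (alt_exists N)).trans ((hΦ.upper _ _ _).trans (le_of_eq ?_))
    simp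
  have hlow : ∀ N, 1 ≤ N → κ ≤ Λ N := by
    intro N hN
    apply le_csInf (hne N)
    rintro _ ⟨b, ⟨A, c, h1, h2⟩, rfl⟩
    apply hΦ.lower b (c 0) (c 1) (h1 0 hN)
    rw [h2 0 (by omega), h2 1 hN]; simp
  -- choose t
  obtain ⟨t, ht1, ht⟩ : ∃ t : ℕ, 1 ≤ t ∧ 16 * C < (t : ℝ) ^ (p - 1) := by
    have h := (tendsto_rpow_atTop (show 0 < p - 1 by linarith)).comp tendsto_natCast_atTop_atTop
    obtain ⟨t, h1, h2⟩ := ((h.eventually_gt_atTop (16 * C)).and
      (Filter.eventually_ge_atTop 1)).exists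
    exact ⟨t, h2, h1⟩
  -- slow growth somewhere
  obtain ⟨j, hj⟩ : ∃ j : ℕ, Λ (1 + (j + 1) * (4 * t)) ≤ 2 * Λ (1 + j * (4 * t)) := by
    by_contra hcon
    push Not at hcon
    have hgrow : ∀ j : ℕ, 2 ^ j * κ ≤ Λ (1 + j * (4 * t)) := by
      intro j
      induction j with
      | zero => simpa using hlow 1 le_rfl
      | succ j ih => have := hcon j; rw [pow_succ]; linarith
    obtain ⟨q, hq⟩ := exists_nat_ge p
    have hlim := tendsto_pow_const_div_const_pow_of_one_lt q (show (1 : ℝ) < 2 by norm_num)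
    have hpos : 0 < κ / (1 + 4 * (t : ℝ)) ^ q := by positivity
    obtain ⟨j, h1, h2⟩ := ((hlim.eventually_lt_const hpos).and
      (Filter.eventually_ge_atTop 1)).exists
    have h3 := (hgrow j).trans (hup _)
    have hj1 : (1 : ℝ) ≤ j := by exact_mod_cast h2
    have ht0 : (0 : ℝ) ≤ t := by positivity
    have h4 : ((1 + j * (4 * t) : ℕ) : ℝ) ^ p ≤ (j : ℝ) ^ q * (1 + 4 * (t : ℝ)) ^ q := by
      rw [← mul_pow, ← Real.rpow_natCast]
      have h5 : (1 : ℝ) ≤ ((1 + j * (4 * t) : ℕ) : ℝ) := by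
        exact_mod_cast Nat.le_add_right _ _
      calc _ ≤ ((1 + j * (4 * t) : ℕ) : ℝ) ^ (q : ℝ) := Real.rpow_le_rpow_of_exponent_le h5 hq
        _ ≤ _ := by
          apply Real.rpow_le_rpow (by positivity) _ (by positivity)
          push_cast; nlinarith
    rw [div_lt_div_iff₀ (by positivity) (by positivity)] at h1
    nlinarith
  set N' := 1 + j * (4 * t) with hN'
  have hΛ' : κ ≤ Λ N' := hlow _ (by omega)
  have hΛ2 : κ ≤ Λ (1 + (j + 1) * (4 * t)) := hlow _ (by omega)
  obtain ⟨_, ⟨b, hb, rfl⟩, hb2⟩ := exists_lt_of_csInf_lt (hne (1 + (j + 1) * (4 * t)))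
    (show Λ (1 + (j + 1) * (4 * t)) < 2 * Λ (1 + (j + 1) * (4 * t)) by linarith)
  have hidx : 2 * (2 + (j + 1) * (2 * t)) - 3 = 1 + (j + 1) * (4 * t) := by
    have : (j + 1) * (4 * t) = 2 * ((j + 1) * (2 * t)) := by ring
    omega
  have hmain := chain_bound (by linarith) hC hΦ t (2 + (j + 1) * (2 * t)) N' ht1
    (by rw [hN']; apply le_of_eq; ring) b (by rw [hidx]; exact hb) (Λ N') (by linarith)
    (fun v hv => hle _ _ hv)
  have htr : (0 : ℝ) < t := by exact_mod_cast ht1
  have hpow : (t : ℝ) ^ p = t * (t : ℝ) ^ (p - 1) := by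
    rw [Real.rpow_sub_one htr.ne']; field_simp
  have h5 : Φ b ≤ 4 * Λ N' := by linarith
  have h6 : 2 * C * t * Φ b ≤ 2 * C * t * (4 * Λ N') := by gcongr
  have h7 : 0 < t * Λ N' := mul_pos htr (by linarith)
  rw [hpow] at hmain
  nlinarith

end Vale.Agent.P125
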