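import Vale.Agent.P125.Defs

/-! From Markov type for functions to Markov type for antisymmetric cocycles. -/

namespace Vale.Agent.P125

open Finset

/-- Markov type inequality for a general cost function. -/
def MTIneq {V : Type*} [AddCommGroup V] (Φ : V → ℝ) (C : ℝ) : Prop :=
  ∀ (S : Type) [Fintype S] [DecidableEq S] (π : S → ℝ) (P : Matrix S S ℝ),
    IsReversibleChain π P → ∀ (f : S → V) (t : ℕ), 1 ≤ t →
      ∑ i, ∑ j, π i * (P ^ t) i j * Φ (f j - f i) ≤
        C * t * ∑ i, ∑ j, π i * P i j * Φ (f j - f i)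

section moves

variable {S J : Type} [Fintype S] [DecidableEq S] [Fintype J]

/-- transition matrix of a uniformly random move -/
noncomputable def moveMat (M : J → S → S) : Matrix S S ℝ :=
  fun x x' => (∑ j, if M j x = x' then (1 : ℝ) else 0) / Fintype.card J

theorem moveMat_sum (M : J → S → S) (x : S) (h : S → ℝ) :
    ∑ x', moveMat M x x' * h x' = (∑ j, h (M j x)) / Fintype.card J := by
  simp only [moveMat, div_mul_eq_mul_div, ← sum_div, sum_mul]
  congr 1
  rw [sum_comm]
  apply sum_congr rfl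
  intro j _
  simp

theorem moveMat_rev [Nonempty S] [Nonempty J] (M : J → S → S) (inv : J → J)
    (hinv : Function.Involutive inv) (hM : ∀ j x, M j x ≠ x → M (inv j) (M j x) = x) :
    IsReversibleChain (fun _ : S => (1 : ℝ) / Fintype.card S) (moveMat M) := by
  refine ⟨fun _ => by positivity, ?_, ?_, ?_, ?_⟩
  · have : (Fintype.card S : ℝ) ≠ 0 := by positivity
    simp [this]
  · intro i j
    unfold moveMat
    apply div_nonneg _ (by positivity)
    exact sum_nonneg (fun _ _ => by split_ifs <;> norm_num)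
  · intro x
    have := moveMat_sum M x (fun _ => 1)
    simp only [mul_one] at this
    rw [this]
    have : (Fintype.card J : ℝ) ≠ 0 := by positivity
    simp [this]
  · intro x x'
    congr 1
    by_cases hx : x = x'
    · rw [hx]
    unfold moveMat
    congr 1
    rw [← Equiv.sum_comp (hinv.toPerm inv)]
    apply sum_congr rfl
    intro j _
    simp only [Function.Involutive.coe_toPerm]
    congr 1
    apply propext
    constructor
    · intro h
      have := hM (inv j) x (by rw [h]; exact Ne.symm hx)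
      rwa [hinv, h] at this
    · intro h
      have := hM j x' (by rw [h]; exact hx)
      rwa [h] at this

theorem moveMat_pow_succ (M : J → S → S) (t : ℕ) (x : S) (h : S → ℝ) :
    ∑ x', (moveMat M ^ (t + 1)) x x' * h x'
      = (∑ j, ∑ x', (moveMat M ^ t) (M j x) x' * h x') / Fintype.card J := by
  rw [← moveMat_sum M x (fun x'' => ∑ x', (moveMat M ^ t) x'' x' * h x'), pow_succ']
  simp only [Matrix.mul_apply, sum_mul, mul_sum, mul_assoc]
  rw [sum_comm]

end moves

section cocycle

variable {V : Type*} [AddCommGroup V] {Ω κ : Type}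

/-- the move on the base -/
def bmv (σ : κ → Ω ≃ Ω) (j : κ × Bool) (ω : Ω) : Ω :=
  match j.2 with
  | true => σ j.1 ω
  | false => (σ j.1).symm ω

/-- the increment -/
def binc (σ : κ → Ω ≃ Ω) (g : κ → Ω → V) (j : κ × Bool) (ω : Ω) : V :=
  match j.2 with
  | true => g j.1 ω
  | false => -g j.1 ((σ j.1).symm ω)

/-- expected cost of the accumulated cocycle -/
noncomputable def Psi [Fintype κ] (Φ : V → ℝ) (σ : κ → Ω ≃ Ω) (g : κ → Ω → V) :
    ℕ → Ω → V → ℝ
  | 0, _, v => Φ v
  | t + 1, ω, v => (∑ j : κ × Bool, Psi Φ σ g t (bmv σ j ω) (v + binc σ g j ω))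
      / Fintype.card (κ × Bool)

theorem Psi_nonneg [Fintype κ] {Φ : V → ℝ} (hΦ : ∀ v, 0 ≤ Φ v) (σ : κ → Ω ≃ Ω) (g : κ → Ω → V)
    (t : ℕ) : ∀ ω v, 0 ≤ Psi Φ σ g t ω v := by
  induction t with
  | zero => intro ω v; exact hΦ v
  | succ t ih =>
    intro ω v
    simp only [Psi]
    exact div_nonneg (sum_nonneg (fun _ _ => ih _ _)) (by positivity)

variable [DecidableEq Ω] [DecidableEq κ]

/-- lifted move on the box -/
def lmv (R : ℕ) (σ : κ → Ω ≃ Ω) (j : κ × Bool) (x : Ω × (κ × Ω → Fin R)) :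
    Ω × (κ × Ω → Fin R) :=
  match j.2 with
  | true => if h : (x.2 (j.1, x.1) : ℕ) + 1 < R then
      (σ j.1 x.1, Function.update x.2 (j.1, x.1) ⟨_, h⟩) else x
  | false => if 0 < (x.2 (j.1, (σ j.1).symm x.1) : ℕ) then
      ((σ j.1).symm x.1, Function.update x.2 (j.1, (σ j.1).symm x.1)
        ⟨(x.2 (j.1, (σ j.1).symm x.1) : ℕ) - 1,
          lt_of_le_of_lt (Nat.sub_le _ _) (x.2 _).2⟩) else x

theorem lmv_inv (R : ℕ) (σ : κ → Ω ≃ Ω) (j : κ × Bool) (x : Ω × (κ × Ω → Fin R))
    (h : lmv R σ j x ≠ x) : lmv R σ (j.1, !j.2) (lmv R σ j x) = x := by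
  obtain ⟨i, b⟩ := j
  obtain ⟨ω, z⟩ := x
  cases b with
  | true =>
    by_cases h1 : (z (i, ω) : ℕ) + 1 < R
    · simp [lmv, h1]
    · exact absurd (by simp [lmv, h1]) h
  | false =>
    by_cases h1 : 0 < (z (i, (σ i).symm ω) : ℕ)
    · have h2 := (z (i, (σ i).symm ω)).2
      have h3 : (z (i, (σ i).symm ω) : ℕ) - 1 + 1 < R := by omega
      simp only [lmv, h1, if_true, Bool.not_false, Function.update_self, h3, dite_true,
        Equiv.apply_symm_apply, Function.update_idem, Prod.mk.injEq, true_and]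
      rw [Function.update_eq_self_iff]
      ext; simp only; omega
    · exact absurd (by simp only [lmv, h1, if_false]) h

/-- the potential on the box -/
def lpot [Fintype Ω] [Fintype κ] (R : ℕ) (g : κ → Ω → V) (x : Ω × (κ × Ω → Fin R)) : V :=
  ∑ e : κ × Ω, (x.2 e : ℕ) • g e.1 e.2

theorem lpot_update [Fintype Ω] [Fintype κ] (R : ℕ) (g : κ → Ω → V) (ω ω' : Ω)
    (z : κ × Ω → Fin R) (e : κ × Ω) (a : Fin R) :
    lpot R g (ω', Function.update z e a) + (z e : ℕ) • g e.1 e.2
      = lpot R g (ω, z) + (a : ℕ) • g e.1 e.2 := by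
  simp only [lpot]
  rw [← add_sum_erase _ _ (mem_univ e), ← add_sum_erase univ _ (mem_univ e)]
  have : ∑ x ∈ univ.erase e, ((Function.update z e a x : Fin R) : ℕ) • g x.1 x.2
      = ∑ x ∈ univ.erase e, (z x : ℕ) • g x.1 x.2 := by
    apply sum_congr rfl
    intro x hx
    rw [Function.update_of_ne (ne_of_mem_erase hx)]
  rw [this, Function.update_self]
  abel

theorem lmv_spec [Fintype Ω] [Fintype κ] (R : ℕ) (σ : κ → Ω ≃ Ω) (g : κ → Ω → V) (j : κ × Bool)
    (x : Ω × (κ × Ω → Fin R)) :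
    lmv R σ j x = x ∨ lpot R g (lmv R σ j x) = lpot R g x + binc σ g j x.1 := by
  obtain ⟨i, b⟩ := j
  obtain ⟨ω, z⟩ := x
  cases b with
  | true =>
    simp only [lmv, binc]
    split_ifs with h1
    · right
      have := lpot_update R g ω (σ i ω) z (i, ω) ⟨_, h1⟩
      simp only [add_nsmul, one_nsmul] at this
      rw [← add_assoc, add_right_comm] at this
      exact add_right_cancel this
    · left; rfl
  | false =>
    simp only [lmv, binc]
    split_ifs with h1
    · right
      have := lpot_update R g ω ((σ i).symm ω) z (i, (σ i).symm ω)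
        ⟨(z (i, (σ i).symm ω) : ℕ) - 1, lt_of_le_of_lt (Nat.sub_le _ _) (z _).2⟩
      obtain ⟨m, hm⟩ : ∃ m, (z (i, (σ i).symm ω) : ℕ) = m + 1 := ⟨_, (Nat.succ_pred_eq_of_pos h1).symm⟩
      simp only [hm, add_nsmul, one_nsmul, Nat.add_sub_cancel] at this ⊢
      rw [← add_assoc, add_right_comm] at this
      rw [← add_right_cancel this]; abel
    · left; rfl

theorem lmv_deep [Fintype Ω] [Fintype κ] (R : ℕ) (σ : κ → Ω ≃ Ω) (g : κ → Ω → V) (j : κ × Bool)
    (x : Ω × (κ × Ω → Fin R)) (t : ℕ) (hx : ∀ e, t + 1 ≤ (x.2 e : ℕ) ∧ (x.2 e : ℕ) + (t + 1) < R) :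
    (lmv R σ j x).1 = bmv σ j x.1 ∧ lpot R g (lmv R σ j x) = lpot R g x + binc σ g j x.1 ∧
      ∀ e, t ≤ ((lmv R σ j x).2 e : ℕ) ∧ ((lmv R σ j x).2 e : ℕ) + t < R := by
  have key : lmv R σ j x ≠ x ∧ (lmv R σ j x).1 = bmv σ j x.1 ∧
      ∀ e, t ≤ ((lmv R σ j x).2 e : ℕ) ∧ ((lmv R σ j x).2 e : ℕ) + t < R := by
    obtain ⟨i, b⟩ := j
    obtain ⟨ω, z⟩ := x
    cases b with
    | true =>
      have h0 := hx (i, ω)
      have h1 : (z (i, ω) : ℕ) + 1 < R := by simp only at h0; omega
      simp only [lmv, bmv, h1, dite_true, true_and]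
      constructor
      · intro h
        have := congrArg (fun w => (w.2 (i, ω) : ℕ)) h
        simp at this
      · intro e
        by_cases he : e = (i, ω)
        · subst he; simp only [Function.update_self]; simp only at h0; omega
        · rw [Function.update_of_ne he]; have := hx e; simp only at this; omega
    | false =>
      have h0 := hx (i, (σ i).symm ω)
      have h1 : 0 < (z (i, (σ i).symm ω) : ℕ) := by simp only at h0; omega
      simp only [lmv, bmv, h1, if_true, true_and]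
      constructor
      · intro h
        have := congrArg (fun w => (w.2 (i, (σ i).symm ω) : ℕ)) h
        simp only [Function.update_self] at this
        omega
      · intro e
        by_cases he : e = (i, (σ i).symm ω)
        · subst he; simp only [Function.update_self]; simp only at h0; omega
        · rw [Function.update_of_ne he]; have := hx e; simp only at this; omega
  exact ⟨key.2.1, (lmv_spec R σ g j x).resolve_left key.1, key.2.2⟩

theorem lift_eq [Fintype Ω] [Fintype κ] (Φ : V → ℝ) (R : ℕ) (σ : κ → Ω ≃ Ω) (g : κ → Ω → V)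
    (u : V) (t : ℕ) : ∀ (x : Ω × (κ × Ω → Fin R)),
      (∀ e, t ≤ (x.2 e : ℕ) ∧ (x.2 e : ℕ) + t < R) →
      ∑ x', (moveMat (lmv R σ) ^ t) x x' * Φ (lpot R g x' - u)
        = Psi Φ σ g t x.1 (lpot R g x - u) := by
  induction t with
  | zero =>
    intro x _
    simp [Psi, Matrix.one_apply]
  | succ t ih =>
    intro x hx
    rw [moveMat_pow_succ]
    simp only [Psi]
    congr 1
    apply sum_congr rfl
    intro j _
    obtain ⟨h1, h2, h3⟩ := lmv_deep R σ g j x t hx
    rw [ih _ h3, h1, h2]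
    congr 1; abel

theorem cocycle_bound [Fintype Ω] [Fintype κ] [Nonempty Ω] [Nonempty κ] {Φ : V → ℝ} {C U : ℝ}
    (hΦ : ∀ v, 0 ≤ Φ v) (hC : 0 ≤ C) (hMT : MTIneq Φ C) (σ : κ → Ω ≃ Ω) (g : κ → Ω → V)
    (h0 : Φ 0 ≤ U) (hU : ∀ j ω, Φ (binc σ g j ω) ≤ U) (t : ℕ) (ht : 1 ≤ t) :
    (∑ ω, Psi Φ σ g t ω 0) / Fintype.card Ω ≤ 2 * C * t * U := by
  set n := Fintype.card (κ × Ω) with hn
  set R := 4 * t * (n + 1) with hR
  have hRpos : 0 < R := by positivity
  have : Nonempty (Fin R) := ⟨⟨0, hRpos⟩⟩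
  have hrev := moveMat_rev (lmv R σ) (fun j : κ × Bool => (j.1, !j.2))
    (fun j => by simp) (lmv_inv R σ)
  have hmain := hMT _ _ _ hrev (lpot R g) t ht
  set N : ℝ := (Fintype.card (Ω × (κ × Ω → Fin R)) : ℝ) with hN
  have hNpos : 0 < N := by positivity
  have hNeq : N = Fintype.card Ω * (R : ℝ) ^ n := by
    simp [hN, hn, Fintype.card_prod]
  -- right-hand side
  have hrhs : ∑ i, ∑ j, 1 / N * moveMat (lmv R σ) i j * Φ (lpot R g j - lpot R g i) ≤ U := by
    have : ∀ i, ∑ j, 1 / N * moveMat (lmv R σ) i j * Φ (lpot R g j - lpot R g i) ≤ 1 / N * U := by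
      intro i
      simp only [mul_assoc, ← mul_sum]
      apply mul_le_mul_of_nonneg_left _ (by positivity)
      rw [moveMat_sum, div_le_iff₀ (by positivity)]
      calc _ ≤ ∑ j : κ × Bool, U := by
            apply sum_le_sum
            intro j _
            rcases lmv_spec R σ g j i with h | h
            · rw [h, sub_self]; exact h0
            · rw [h, add_sub_cancel_left]; exact hU _ _
        _ = _ := by simp [mul_comm]
    calc _ ≤ ∑ i : Ω × (κ × Ω → Fin R), 1 / N * U := sum_le_sum (fun i _ => this i)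
      _ = U := by
        rw [sum_const, card_univ, nsmul_eq_mul, ← hN]; field_simp
  -- left-hand side
  let D : Finset (Fin R) := univ.filter (fun a => t ≤ (a : ℕ) ∧ (a : ℕ) + t < R)
  have hD : D.card = R - 2 * t := by
    have : D.map Fin.valEmbedding = Ico t (R - t) := by
      ext a
      simp only [D, mem_map, mem_filter, mem_univ, true_and, Fin.valEmbedding_apply, mem_Ico]
      constructor
      · rintro ⟨b, hb, rfl⟩; omega
      · intro ha; exact ⟨⟨a, by omega⟩, by simp only; omega, rfl⟩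
    rw [← card_map Fin.valEmbedding, this, Nat.card_Ico]; omega
  have hPnn : ∀ i j, 0 ≤ (moveMat (lmv R σ) ^ t) i j := by
    intro i j
    exact Matrix.pow_apply_nonneg hrev.2.2.1 t i j
  have hlhs : 1 / N * ((D.card : ℝ) ^ n * ∑ ω, Psi Φ σ g t ω 0) ≤
      ∑ i, ∑ j, 1 / N * (moveMat (lmv R σ) ^ t) i j * Φ (lpot R g j - lpot R g i) := by
    simp only [mul_assoc, ← mul_sum]
    apply mul_le_mul_of_nonneg_left _ (by positivity)
    calc (D.card : ℝ) ^ n * ∑ ω, Psi Φ σ g t ω 0
        = ∑ x ∈ (univ : Finset Ω) ×ˢ Fintype.piFinset (fun _ : κ × Ω => D), Psi Φ σ g t x.1 0 := by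
          rw [sum_product, mul_sum]
          apply sum_congr rfl
          intro ω _
          simp [hn]
      _ = ∑ x ∈ (univ : Finset Ω) ×ˢ Fintype.piFinset (fun _ : κ × Ω => D),
            ∑ j, (moveMat (lmv R σ) ^ t) x j * Φ (lpot R g j - lpot R g x) := by
          apply sum_congr rfl
          intro x hx
          rw [lift_eq Φ R σ g _ t x, sub_self]
          intro e
          simp only [mem_product, mem_univ, true_and, Fintype.mem_piFinset, D, mem_filter] at hx
          exact hx e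
      _ ≤ _ := by
          apply sum_le_sum_of_subset_of_nonneg (subset_univ _)
          intro i _ _
          exact sum_nonneg (fun j _ => mul_nonneg (hPnn _ _) (hΦ _))
  have hfrac : (R : ℝ) ^ n ≤ 2 * (D.card : ℝ) ^ n := by
    have hRr : (0 : ℝ) < R := by exact_mod_cast hRpos
    have hRe : (R : ℝ) = 4 * t * (n + 1) := by simp [hR]
    have htr : (1 : ℝ) ≤ t := by exact_mod_cast ht
    have hn0 : (0 : ℝ) ≤ n := by positivity
    have hDc : (D.card : ℝ) = R * (1 + -(1 / (2 * (n + 1)))) := by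
      rw [hD, Nat.cast_sub (by rw [hR]; nlinarith), hRe]
      push_cast
      field_simp
      ring
    have hb := one_add_mul_le_pow (a := -(1 / (2 * ((n : ℝ) + 1)))) (by
      have : 1 / (2 * ((n : ℝ) + 1)) ≤ 1 := by
        rw [div_le_one (by positivity)]; linarith
      linarith) n
    have hh : (1 : ℝ) / 2 ≤ 1 + n * -(1 / (2 * ((n : ℝ) + 1))) := by
      have : (n : ℝ) * (1 / (2 * ((n : ℝ) + 1))) ≤ 1 / 2 := by
        rw [mul_one_div, div_le_iff₀ (by positivity)]; linarith
      linarith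
    rw [hDc, mul_pow]
    have : (0 : ℝ) < (R : ℝ) ^ n := by positivity
    nlinarith
  have hsum : 0 ≤ ∑ ω, Psi Φ σ g t ω 0 := sum_nonneg (fun _ _ => Psi_nonneg hΦ σ g t _ _)
  have hΩ : (0 : ℝ) < Fintype.card Ω := by positivity
  have hRn : (0 : ℝ) < (R : ℝ) ^ n := by positivity
  have h3 : 1 / N * ((D.card : ℝ) ^ n * ∑ ω, Psi Φ σ g t ω 0) ≤ C * t * U :=
    hlhs.trans (hmain.trans (mul_le_mul_of_nonneg_left hrhs (by positivity)))
  rw [hNeq, one_div, inv_mul_le_iff₀ (by positivity)] at h3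
  rw [div_le_iff₀ hΩ]
  have h4 : (R : ℝ) ^ n * ∑ ω, Psi Φ σ g t ω 0 ≤ (R : ℝ) ^ n * (2 * C * t * U * Fintype.card Ω) := by
    calc _ ≤ 2 * (D.card : ℝ) ^ n * ∑ ω, Psi Φ σ g t ω 0 := by gcongr
      _ ≤ _ := by nlinarith
  exact le_of_mul_le_mul_left h4 hRn

end cocycle

end Vale.Agent.P125
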