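import Mathlib

namespace Vale.Agent.P125

open Filter Topology

/-- `π` is a probability vector on the finite set `S`, `P` is a stochastic matrix, and the
detailed balance equations hold: the chain started from `π` is stationary and reversible. -/
def IsReversibleChain {S : Type} [Fintype S] (π : S → ℝ) (P : Matrix S S ℝ) : Prop :=
  (∀ i, 0 ≤ π i) ∧ (∑ i, π i = 1) ∧ (∀ i j, 0 ≤ P i j) ∧ (∀ i, ∑ j, P i j = 1) ∧
    ∀ i j, π i * P i j = π j * P j i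

/-- Markov type `p` (Ball). The pair `(Z_0, Z_t)` has law `π i * (P ^ t) i j`. -/
def HasMarkovType (X : Type*) [NormedAddCommGroup X] (p : ℝ) : Prop :=
  ∃ K : ℝ, 0 ≤ K ∧
    ∀ (S : Type) [Fintype S] [DecidableEq S] (π : S → ℝ) (P : Matrix S S ℝ),
      IsReversibleChain π P → ∀ (f : S → X) (t : ℕ), 1 ≤ t →
        ∑ i, ∑ j, π i * (P ^ t) i j * ‖f j - f i‖ ^ p ≤
          K ^ p * t * ∑ i, ∑ j, π i * P i j * ‖f j - f i‖ ^ p

/-- `N` is equivalent to the given norm (so the seminorm `N` is a norm). -/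
def IsEquivNorm {X : Type*} [NormedAddCommGroup X] [NormedSpace ℝ X] (N : Seminorm ℝ X) : Prop :=
  ∃ a b : ℝ, 0 < a ∧ 0 < b ∧ ∀ x, a * ‖x‖ ≤ N x ∧ N x ≤ b * ‖x‖

/-- The modulus of smoothness of `N`. -/
noncomputable def smoothModulus {X : Type*} [NormedAddCommGroup X] [NormedSpace ℝ X]
    (N : Seminorm ℝ X) (τ : ℝ) : ℝ :=
  sSup {r : ℝ | ∃ x y : X, N x = 1 ∧ N y = 1 ∧ r = (N (x + τ • y) + N (x - τ • y)) / 2 - 1}

/-- `N` is uniformly smooth. -/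
def IsUniformlySmooth {X : Type*} [NormedAddCommGroup X] [NormedSpace ℝ X]
    (N : Seminorm ℝ X) : Prop :=
  Tendsto (fun τ : ℝ => smoothModulus N τ / τ) (𝓝[>] 0) (𝓝 0)

/-- `N` is uniformly convex. -/
def IsUniformlyConvex {X : Type*} [NormedAddCommGroup X] [NormedSpace ℝ X]
    (N : Seminorm ℝ X) : Prop :=
  ∀ ε : ℝ, 0 < ε → ε ≤ 2 → ∃ δ : ℝ, 0 < δ ∧
    ∀ x y : X, N x ≤ 1 → N y ≤ 1 → ε ≤ N (x - y) → N ((1 / 2 : ℝ) • (x + y)) ≤ 1 - δ

end Vale.Agent.P125
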