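import Mathlib

/-! Without long threshold systems, a function class is covered online by polynomially many
experts. -/

namespace Vale.Agent.P125

open Finset

section experts

variable {Z : Type*} {Γ : Type}

/-- discretised threshold systems, as lists -/
def LSys (θ : ℝ) (cell : ℝ → Γ) (cen : Γ → ℝ) (m : ℕ) (F : Set (Z → ℝ)) (Z' : Set Z) : Prop :=
  ∃ l : List ((Z → ℝ) × Z × Γ), l.length = m ∧
    (∀ e ∈ l, e.1 ∈ F ∧ e.2.1 ∈ Z' ∧ θ < |cen (cell (e.1 e.2.1)) - cen e.2.2|) ∧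
    l.Pairwise (fun e e' => cell (e'.1 e.2.1) = e.2.2 ∧ cell (e.1 e'.2.1) = cell (e.1 e.2.1))

/-- the prediction at time `k` depends on the points up to time `k` only -/
def Causal (w : (ℕ → Z) → ℕ → Γ) : Prop :=
  ∀ z z' k, (∀ j, j ≤ k → z j = z' j) → w z k = w z' k

theorem experts [Fintype Γ] [Nonempty Γ] {θ : ℝ} (hθ : 0 ≤ θ) (cell : ℝ → Γ) (cen : Γ → ℝ)
    (m : ℕ) : ∃ d : ℕ, ∀ n : ℕ, ∃ (ι : Type) (_ : Fintype ι) (_ : Nonempty ι),
      Fintype.card ι ≤ (n + 2) ^ d ∧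
      ∀ (F : Set (Z → ℝ)) (Z' : Set Z), ¬ LSys θ cell cen m F Z' →
        ∃ w : ι → (ℕ → Z) → ℕ → Γ, (∀ i, Causal (w i)) ∧ ∀ (z : ℕ → Z), ∀ f ∈ F, ∃ i,
          ∀ k, k < n → z k ∈ Z' → |cen (cell (f (z k))) - cen (w i z k)| ≤ θ := by
  classical
  induction m with
  | zero =>
    refine ⟨0, fun n => ⟨Unit, inferInstance, inferInstance, by simp, fun F Z' h => ?_⟩⟩
    exact absurd ⟨[], rfl, by simp, List.Pairwise.nil⟩ h
  | succ m ih =>
    obtain ⟨d, hd⟩ := ih
    refine ⟨(Fintype.card Γ + d + 1) * Fintype.card Γ, fun n => ?_⟩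
    obtain ⟨ι, _, _, hι, hw⟩ := hd n
    refine ⟨Γ → Option (Fin n × Γ × ι), inferInstance, inferInstance, ?_, ?_⟩
    · rw [Fintype.card_fun, pow_mul]
      apply Nat.pow_le_pow_left
      simp only [Fintype.card_option, Fintype.card_prod, Fintype.card_fin]
      have h1 : Fintype.card Γ ≤ (n + 2) ^ Fintype.card Γ :=
        (Nat.lt_two_pow_self).le.trans (Nat.pow_le_pow_left (by omega) _)
      have h2 : Fintype.card Γ * Fintype.card ι ≤ (n + 2) ^ (Fintype.card Γ + d) := by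
        rw [pow_add]; exact Nat.mul_le_mul h1 hι
      have h3 : 1 ≤ (n + 2) ^ (Fintype.card Γ + d) := Nat.one_le_pow _ _ (by omega)
      rw [pow_succ]
      nlinarith
    intro F Z' hno
    rcases F.eq_empty_or_nonempty with hF | ⟨f1, hf1⟩
    · exact ⟨fun _ _ _ => Classical.arbitrary Γ, fun _ _ _ _ _ => rfl, by simp [hF]⟩
    have hW : ∀ (zs : Z) (β : Γ), ∃ w : ι → (ℕ → Z) → ℕ → Γ, (∀ i, Causal (w i)) ∧
        (zs ∈ Z' → θ < |cen (cell (f1 zs)) - cen β| → ∀ (z : ℕ → Z), ∀ f ∈ F,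
          cell (f zs) = β → ∃ i, ∀ k, k < n → z k ∈ Z' → cell (f1 (z k)) = cell (f1 zs) →
            |cen (cell (f (z k))) - cen (w i z k)| ≤ θ) := by
      intro zs β
      by_cases hc : zs ∈ Z' ∧ θ < |cen (cell (f1 zs)) - cen β|
      swap
      · exact ⟨fun _ _ _ => Classical.arbitrary Γ, fun _ _ _ _ _ => rfl,
          fun h1 h2 => absurd ⟨h1, h2⟩ hc⟩
      have : ¬ LSys θ cell cen m {f | f ∈ F ∧ cell (f zs) = β}
          {z | z ∈ Z' ∧ cell (f1 z) = cell (f1 zs)} := by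
        rintro ⟨l, h1, h2, h3⟩
        apply hno
        refine ⟨(f1, zs, β) :: l, by simp [h1], ?_, ?_⟩
        · intro e he
          rcases List.mem_cons.mp he with rfl | he
          · exact ⟨hf1, hc.1, hc.2⟩
          · exact ⟨(h2 e he).1.1, (h2 e he).2.1.1, (h2 e he).2.2⟩
        · rw [List.pairwise_cons]
          exact ⟨fun e he => ⟨(h2 e he).1.2, (h2 e he).2.1.2⟩, h3⟩
      obtain ⟨w, h1, h2⟩ := hw _ _ this
      refine ⟨w, h1, fun _ _ z f hf hβ => ?_⟩
      obtain ⟨i, hi⟩ := h2 z f ⟨hf, hβ⟩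
      exact ⟨i, fun k hk h3 h4 => hi k hk ⟨h3, h4⟩⟩
    choose W hWc hW using hW
    let pred : Γ → Option (Fin n × Γ × ι) → (ℕ → Z) → ℕ → Γ := fun α o z k =>
      match o with
      | none => α
      | some (ks, β, i) => if k < ks then α else if k = ks then β else W (z ks) β i z k
    refine ⟨fun idx z k => pred (cell (f1 (z k))) (idx (cell (f1 (z k)))) z k, ?_, ?_⟩
    · intro idx z z' k h
      simp only
      rw [← h k le_rfl]
      rcases idx (cell (f1 (z k))) with _ | ⟨ks, β, i⟩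
      · rfl
      · simp only [pred]
        split_ifs with h1 h2
        · rfl
        · rfl
        · rw [← h ks (by omega)]
          exact hWc _ _ _ _ _ _ h
    · intro z f hf
      have : ∀ α : Γ, ∃ o, ∀ k, k < n → z k ∈ Z' → cell (f1 (z k)) = α →
          |cen (cell (f (z k))) - cen (pred α o z k)| ≤ θ := by
        intro α
        by_cases hex : ∃ k, k < n ∧ z k ∈ Z' ∧ cell (f1 (z k)) = α ∧
            θ < |cen α - cen (cell (f (z k)))|
        swap
        · refine ⟨none, fun k h1 h2 h3 => ?_⟩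
          simp only [pred]
          rw [abs_sub_comm]
          by_contra hcon
          exact hex ⟨k, h1, h2, h3, not_le.mp hcon⟩
        obtain ⟨h1, h2, h3, h4⟩ := Nat.find_spec hex
        obtain ⟨i, hi⟩ := hW (z (Nat.find hex)) (cell (f (z (Nat.find hex)))) h2
          (by rw [h3]; exact h4) z f hf rfl
        refine ⟨some (⟨Nat.find hex, h1⟩, cell (f (z (Nat.find hex))), i), fun k g1 g2 g3 => ?_⟩
        simp only [pred]
        split_ifs with c1 c2
        · rw [abs_sub_comm]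
          by_contra hcon
          exact Nat.find_min hex c1 ⟨g1, g2, g3, not_le.mp hcon⟩
        · rw [← c2]; simpa using hθ
        · exact hi k g1 g2 (by rw [g3, h3])
      choose idx hidx using this
      exact ⟨idx, fun k h1 h2 => hidx _ k h1 h2 rfl⟩

/-- threshold systems for a function class -/
def FThresh (F : Set (Z → ℝ)) (Z' : Set Z) (θ η : ℝ) (m : ℕ) : Prop :=
  ∃ (x : ℕ → Z) (φ : ℕ → Z → ℝ) (α β : ℝ), θ ≤ |α - β| ∧ (∀ i, x i ∈ Z') ∧ (∀ i, φ i ∈ F) ∧
    ∀ i, i < m → ∀ j, j < m →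
      (i ≤ j → |φ i (x j) - α| ≤ η) ∧ (j < i → |φ i (x j) - β| ≤ η)

theorem fthresh_of_lsys [Fintype Γ] [Nonempty Γ] {θ η : ℝ} (cell : ℝ → Γ) (cen : Γ → ℝ)
    (F : Set (Z → ℝ)) (Z' : Set Z) (hcell : ∀ f ∈ F, ∀ z ∈ Z', |f z - cen (cell (f z))| ≤ η)
    (m : ℕ) (h : LSys θ cell cen (Fintype.card (Γ × Γ) * (m + 1)) F Z') :
    FThresh F Z' θ η m := by
  classical
  obtain ⟨l, h1, h2, h3⟩ := h
  let key : (Z → ℝ) × Z × Γ → Γ × Γ := fun e => (cell (e.1 e.2.1), e.2.2)
  obtain ⟨ab, hab⟩ : ∃ ab : Γ × Γ, m + 1 ≤ (l.filter (fun e => key e = ab)).length := by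
    by_contra hcon
    push Not at hcon
    have hsum : ∀ l : List ((Z → ℝ) × Z × Γ),
        l.length = ∑ ab : Γ × Γ, (l.filter (fun e => key e = ab)).length := by
      intro l
      induction l with
      | nil => simp
      | cons e l ih =>
        have : ∀ ab, ((e :: l).filter (fun e => key e = ab)).length
            = (l.filter (fun e => key e = ab)).length + if key e = ab then 1 else 0 := by
          intro ab
          by_cases h : key e = ab <;> simp [h]
        simp only [this, sum_add_distrib, ← ih]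
        simp
    have h4 := hsum l
    have h5 : ∑ ab : Γ × Γ, (l.filter (fun e => key e = ab)).length ≤ ∑ ab : Γ × Γ, m :=
      sum_le_sum (fun ab _ => by have := hcon ab; omega)
    rw [sum_const, card_univ, smul_eq_mul] at h5
    have h6 : 0 < Fintype.card (Γ × Γ) := Fintype.card_pos
    rw [h1, mul_add] at h4
    omega
  set l' := l.filter (fun e => key e = ab) with hl'
  have hmem : ∀ e ∈ l', e ∈ l ∧ key e = ab := by
    intro e he
    rw [hl', List.mem_filter] at he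
    exact ⟨he.1, by simpa using he.2⟩
  have hpw := h3.sublist (List.filter_sublist (p := fun e => key e = ab) (l := l))
  rw [← hl', List.pairwise_iff_getElem] at hpw
  let el : ℕ → (Z → ℝ) × Z × Γ := fun i =>
    if h : i < l'.length then l'[i] else l'[0]'(by omega)
  have hel : ∀ i, el i ∈ l' := by
    intro i; simp only [el]; split_ifs <;> exact List.getElem_mem _
  have hk1 : ∀ i, cell ((el i).1 (el i).2.1) = ab.1 := fun i =>
    congrArg Prod.fst (hmem _ (hel i)).2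
  have hk2 : ∀ i, (el i).2.2 = ab.2 := fun i => congrArg Prod.snd (hmem _ (hel i)).2
  have hpw' : ∀ i j, i < j → j < m → cell ((el j).1 (el i).2.1) = (el i).2.2 ∧
      cell ((el i).1 (el j).2.1) = cell ((el i).1 (el i).2.1) := by
    intro i j hij hj
    have e1 : i < l'.length := by omega
    have e2 : j < l'.length := by omega
    simp only [el, e1, e2, dif_pos]
    exact hpw i j e1 e2 hij
  have hF : ∀ i, (el i).1 ∈ F := fun i => (h2 _ (hmem _ (hel i)).1).1
  have hZ : ∀ i, (el i).2.1 ∈ Z' := fun i => (h2 _ (hmem _ (hel i)).1).2.1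
  refine ⟨fun i => (el i).2.1, fun i => (el i).1, cen ab.1, cen ab.2, ?_, hZ, hF, ?_⟩
  · have := (h2 _ (hmem _ (hel 0)).1).2.2
    rw [hk1, hk2] at this
    exact this.le
  · intro i hi j hj
    have hc := hcell _ (hF i) _ (hZ j)
    constructor
    · intro hij
      rcases hij.lt_or_eq with hij | hij
      · rwa [(hpw' i j hij hj).2, hk1] at hc
      · subst hij; rwa [hk1] at hc
    · intro hij
      rwa [(hpw' j i hij hi).1, hk2] at hc

end experts

theorem exists_grid {η : ℝ} (hη : 0 < η) : ∃ (Γ : Type) (_ : Fintype Γ) (_ : Nonempty Γ)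
    (cell : ℝ → Γ) (cen : Γ → ℝ), (∀ a, |cen a| ≤ 1) ∧ ∀ s, |s| ≤ 1 → |s - cen (cell s)| ≤ η := by
  obtain ⟨J, hJ⟩ := exists_nat_gt (1 / η)
  have hJ0 : (0 : ℝ) < J := lt_trans (by positivity) hJ
  refine ⟨Fin (2 * J + 1), inferInstance, inferInstance,
    fun s => ⟨min (2 * J) ⌊(s + 1) * J⌋₊, by omega⟩, fun a => (a : ℕ) / (J : ℝ) - 1, ?_, ?_⟩
  · intro a
    have h1 : ((a : ℕ) : ℝ) ≤ 2 * J := by
      have := a.2
      exact_mod_cast (by omega : (a : ℕ) ≤ 2 * J)
    have h2 : ((a : ℕ) : ℝ) / J ≤ 2 := by rw [div_le_iff₀ hJ0]; exact h1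
    have h3 : 0 ≤ ((a : ℕ) : ℝ) / J := by positivity
    rw [abs_le]; constructor <;> linarith
  · intro s hs
    obtain ⟨h1, h2⟩ := abs_le.mp hs
    have h0 : 0 ≤ (s + 1) * J := mul_nonneg (by linarith) hJ0.le
    have h3 : ⌊(s + 1) * J⌋₊ ≤ 2 * J := by
      apply Nat.floor_le_of_le
      push_cast; nlinarith
    simp only [min_eq_right h3]
    have h4 := Nat.floor_le h0
    have h5 := Nat.lt_floor_add_one ((s + 1) * J)
    have h6 : 1 / (J : ℝ) ≤ η := by
      rw [div_le_iff₀ hJ0]; rw [div_lt_iff₀ hη] at hJ; linarith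
    have h7 : (⌊(s + 1) * J⌋₊ : ℝ) / J ≤ s + 1 := by rw [div_le_iff₀ hJ0]; exact h4
    have h8 : s + 1 ≤ (⌊(s + 1) * J⌋₊ : ℝ) / J + 1 / J := by
      rw [← add_div, le_div_iff₀ hJ0]; exact h5.le
    rw [abs_le]; constructor <;> linarith

/-- online covering -/
theorem online_cover {Z : Type*} (F : Set (Z → ℝ)) (Z' : Set Z)
    (hb : ∀ f ∈ F, ∀ z ∈ Z', |f z| ≤ 1) {θ η : ℝ} (hθ : 0 ≤ θ) (hη : 0 < η) (m : ℕ)
    (hno : ¬ FThresh F Z' θ η m) :
    ∃ d : ℕ, ∀ n : ℕ, ∃ (ι : Type) (_ : Fintype ι) (_ : Nonempty ι),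
      Fintype.card ι ≤ (n + 2) ^ d ∧ ∃ w : ι → (ℕ → Z) → ℕ → ℝ,
        (∀ i z k, |w i z k| ≤ 1) ∧
        (∀ i z z' k, (∀ j, j ≤ k → z j = z' j) → w i z k = w i z' k) ∧
        ∀ (z : ℕ → Z), ∀ f ∈ F, ∃ i, ∀ k, k < n → z k ∈ Z' → |f (z k) - w i z k| ≤ θ + η := by
  obtain ⟨Γ, _, _, cell, cen, h1, h2⟩ := exists_grid hη
  have hcell : ∀ f ∈ F, ∀ z ∈ Z', |f z - cen (cell (f z))| ≤ η :=
    fun f hf z hz => h2 _ (hb f hf z hz)
  obtain ⟨d, hd⟩ := experts (Z := Z) hθ cell cen (Fintype.card (Γ × Γ) * (m + 1))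
  refine ⟨d, fun n => ?_⟩
  obtain ⟨ι, _, _, hι, hw⟩ := hd n
  obtain ⟨w, hw1, hw2⟩ := hw F Z' (fun h => hno (fthresh_of_lsys cell cen F Z' hcell m h))
  refine ⟨ι, inferInstance, inferInstance, hι, fun i z k => cen (w i z k), fun _ _ _ => h1 _,
    fun i z z' k h => by simp only; rw [hw1 i z z' k h], fun z f hf => ?_⟩
  obtain ⟨i, hi⟩ := hw2 z f hf
  refine ⟨i, fun k hk hz => ?_⟩
  have e1 := abs_le.mp (hi k hk hz)
  have e2 := abs_le.mp (hcell f hf _ hz)
  rw [abs_le]; constructor <;> linarith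

end Vale.Agent.P125
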