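import Vale.Agent.P125.Chain

/-! Markov type `p > 1` excludes long threshold systems. -/

namespace Vale.Agent.P125

open Finset Filter Topology

/-- James-type threshold system of length `m`, margin `θ` and resolution `η`. -/
def Thresh (X : Type*) [NormedAddCommGroup X] [NormedSpace ℝ X] (θ η : ℝ) (m : ℕ) : Prop :=
  ∃ (x : ℕ → X) (φ : ℕ → X →L[ℝ] ℝ) (α β : ℝ), θ ≤ |α - β| ∧ (∀ i, ‖x i‖ ≤ 1) ∧
    (∀ i, ‖φ i‖ ≤ 1) ∧ ∀ i, i < m → ∀ j, j < m →
      (i ≤ j → |φ i (x j) - α| ≤ η) ∧ (j < i → |φ i (x j) - β| ≤ η)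

variable {X : Type*} [NormedAddCommGroup X] [NormedSpace ℝ X]

theorem lc_vec (x : ℕ → X) (L : ℕ) (b : ℕ → ℝ) (η : ℕ → ℕ) :
    Finsupp.linearCombination ℝ x (vec L b η) = ∑ l ∈ range L, b l • x (η l) := by
  simp [vec, map_sum]

theorem norm_lc_vec_le (x : ℕ → X) (hx : ∀ i, ‖x i‖ ≤ 1) (L : ℕ) (b : ℕ → ℝ) (η : ℕ → ℕ) :
    ‖Finsupp.linearCombination ℝ x (vec L b η)‖ ≤ ∑ l ∈ range L, |b l| := by
  rw [lc_vec]
  refine (norm_sum_le _ _).trans (sum_le_sum (fun l _ => ?_))
  rw [norm_smul, Real.norm_eq_abs]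
  exact mul_le_of_le_one_right (abs_nonneg _) (hx _)

theorem approx_cost {p C θ : ℝ} (hp : 0 < p) (hθ : 0 < θ)
    (hMT : MTIneq (fun v : X => ‖v‖ ^ p) C) (hT : ∀ η, 0 < η → ∀ m, Thresh X θ η m) (r : ℕ) :
    ∃ F : (ℕ →₀ ℝ) → ℝ, (∀ a, 0 ≤ F a) ∧ (∀ (c : ℝ) a, F (c • a) = |c| ^ p * F a) ∧
      MTIneq F C ∧
      (∀ L b η η', IncBelow L η → IncBelow L η' → (∀ l, l < L → η l < r) →
        (∀ l, l < L → η' l < r) →
        F (vec L b η) ≤ F (vec L b η') + 1 / ((r : ℝ) + 1) * (∑ x ∈ range L, |b x|) ^ p) ∧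
      (∀ L b η, F (vec L b η) ≤ (∑ x ∈ range L, |b x|) ^ p) ∧
      (∀ (L : ℕ) (b : ℕ → ℝ) c c', c ≤ c' → c' ≤ r → L ≤ r →
        tail c' (vec L b id) = tail c (vec L b id) + 1 →
        1 / ((r : ℝ) + 1) * ∑ x ∈ range L, |b x| ≤ θ / 4 → (θ / 4) ^ p ≤ F (vec L b id)) := by
  classical
  have hε : (0 : ℝ) < 1 / ((r : ℝ) + 1) := by positivity
  obtain ⟨Ω, _, _, y, hy, hsp⟩ := spread r _ hε
  obtain ⟨m, hm⟩ : ∃ m : ℕ, ∀ ω, y ω r < m :=
    ⟨univ.sup (fun ω => y ω r) + 1, fun ω =>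
      Nat.lt_succ_of_le (Finset.le_sup (f := fun ω => y ω r) (mem_univ ω))⟩
  obtain ⟨x, φ, α, β, hαβ, hx, hφ, hth⟩ := hT _ hε m
  let ev : Ω → (ℕ →₀ ℝ) →ₗ[ℝ] X := fun ω => Finsupp.linearCombination ℝ (fun i => x (y ω i))
  have hΩ : (0 : ℝ) < Fintype.card Ω := by positivity
  have hevle : ∀ ω L b η, ‖ev ω (vec L b η)‖ ^ p ≤ (∑ x ∈ range L, |b x|) ^ p := by
    intro ω L b η
    exact Real.rpow_le_rpow (norm_nonneg _) (norm_lc_vec_le _ (fun i => hx _) L b η) hp.le
  refine ⟨fun a => (∑ ω, ‖ev ω a‖ ^ p) / Fintype.card Ω, ?_, ?_, ?_, ?_, ?_, ?_⟩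
  · intro a
    exact div_nonneg (sum_nonneg (fun _ _ => by positivity)) hΩ.le
  · intro c a
    simp only [map_smul, norm_smul, Real.norm_eq_abs]
    rw [← mul_div_assoc, mul_sum]
    congr 1
    apply sum_congr rfl
    intro ω _
    rw [Real.mul_rpow (abs_nonneg _) (norm_nonneg _)]
  · intro S _ _ π P hP f t ht
    have h := fun ω => hMT S π P hP (fun s => ev ω (f s)) t ht
    have e : ∀ Q : Matrix S S ℝ,
        ∑ i, ∑ j, π i * Q i j * ((∑ ω, ‖ev ω (f j - f i)‖ ^ p) / Fintype.card Ω)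
        = (∑ ω, ∑ i, ∑ j, π i * Q i j * ‖ev ω (f j) - ev ω (f i)‖ ^ p) / Fintype.card Ω := by
      intro Q
      simp only [← mul_div_assoc, ← sum_div, mul_sum, map_sub]
      congr 1
      rw [sum_comm' (t' := univ) (s' := fun _ => univ) (by simp)]
      conv_rhs => rw [sum_comm]
      rw [sum_comm]
      apply sum_congr rfl
      intro i _
      rw [sum_comm]
    rw [e, e, ← mul_div_assoc, mul_sum]
    exact div_le_div_of_nonneg_right (sum_le_sum (fun ω _ => h ω)) hΩ.le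
  · intro L b η η' h1 h2 h3 h4
    obtain ⟨σ, bad, hb, hσ⟩ := hsp L η η' h1 h2 h3 h4
    set M := (∑ x ∈ range L, |b x|) ^ p with hM
    have hM0 : 0 ≤ M := by positivity
    have key : ∀ ω, ‖ev ω (vec L b η)‖ ^ p ≤ ‖ev (σ ω) (vec L b η')‖ ^ p
        + (if ω ∈ bad then M else 0) := by
      intro ω
      split_ifs with hω
      · have := hevle ω L b η
        have h0 : 0 ≤ ‖ev (σ ω) (vec L b η')‖ ^ p := by positivity
        linarith
      · have : ev ω (vec L b η) = ev (σ ω) (vec L b η') := by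
          simp only [ev, lc_vec]
          apply sum_congr rfl
          intro l hl
          rw [hσ ω hω l (mem_range.mp hl)]
        rw [this, add_zero]
    have h5 := sum_le_sum (fun ω (_ : ω ∈ (univ : Finset Ω)) => key ω)
    rw [sum_add_distrib, Equiv.sum_comp σ (fun ω => ‖ev ω (vec L b η')‖ ^ p)] at h5
    have h6 : ∑ ω : Ω, (if ω ∈ bad then M else 0) = bad.card * M := by simp
    rw [h6] at h5
    simp only
    rw [div_le_iff₀ hΩ, add_mul, div_mul_cancel₀ _ hΩ.ne']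
    have h7 : (bad.card : ℝ) * M ≤ 1 / ((r : ℝ) + 1) * Fintype.card Ω * M := by gcongr
    linarith
  · intro L b η
    simp only
    rw [div_le_iff₀ hΩ]
    calc _ ≤ ∑ ω : Ω, (∑ x ∈ range L, |b x|) ^ p := sum_le_sum (fun ω _ => hevle ω L b η)
      _ = _ := by simp [mul_comm]
  · intro L b c c' hcc hc' hL htail hsm
    simp only
    rw [le_div_iff₀ hΩ]
    have key : ∀ ω, (θ / 4) ^ p ≤ ‖ev ω (vec L b id)‖ ^ p := by
      intro ω
      apply Real.rpow_le_rpow (by positivity) _ hp.le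
      have hym : ∀ i, i ≤ r → y ω i < m := fun i hi => lt_of_le_of_lt ((hy ω).monotone hi) (hm ω)
      have happ : ∀ d, d ≤ r → |φ (y ω d) (ev ω (vec L b id))
          - (β * ∑ l ∈ range L, b l + (α - β) * tail d (vec L b id))| ≤ θ / 4 := by
        intro d hd
        refine le_trans ?_ hsm
        simp only [ev, lc_vec, tail_vec, map_sum, map_smul, id, smul_eq_mul, mul_sum]
        rw [← sum_add_distrib, ← sum_sub_distrib]
        refine (abs_sum_le_sum_abs _ _).trans (sum_le_sum (fun l hl => ?_))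
        have hl' : l < L := mem_range.mp hl
        obtain ⟨h1, h2⟩ := hth _ (hym d hd) _ (hym l (by omega))
        split_ifs with h
        · have := h1 ((hy ω).monotone h)
          rw [show b l * φ (y ω d) (x (y ω l)) - (β * b l + (α - β) * b l)
            = (φ (y ω d) (x (y ω l)) - α) * b l by ring, abs_mul]
          gcongr
        · have := h2 (hy ω (not_le.mp h))
          rw [show b l * φ (y ω d) (x (y ω l)) - (β * b l + (α - β) * 0)
            = (φ (y ω d) (x (y ω l)) - β) * b l by ring, abs_mul]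
          gcongr
      have h1 := happ c (by omega)
      have h2 := happ c' hc'
      rw [htail] at h2
      have h3 : ∀ d, |φ d (ev ω (vec L b id))| ≤ ‖ev ω (vec L b id)‖ := by
        intro d
        have := (φ d).le_opNorm (ev ω (vec L b id))
        rw [Real.norm_eq_abs] at this
        exact this.trans (mul_le_of_le_one_left (norm_nonneg _) (hφ d))
      have h4 := abs_le.mp (h3 (y ω c))
      have h5 := abs_le.mp (h3 (y ω c'))
      have h6 := abs_le.mp h1
      have h7 := abs_le.mp h2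
      have h8 : |α - β| ≤ 2 * ‖ev ω (vec L b id)‖ + θ / 2 := by
        rw [abs_le]; constructor <;> nlinarith
      linarith
    calc _ = ∑ ω : Ω, (θ / 4) ^ p := by simp [mul_comm]
      _ ≤ _ := sum_le_sum (fun ω _ => key ω)

theorem exists_bound (a : ℕ →₀ ℝ) : ∃ L, ∀ x ∈ a.support, x < L :=
  ⟨a.support.sup id + 1, fun _ hx => Nat.lt_succ_of_le (Finset.le_sup (f := id) hx)⟩

theorem no_thresh {p : ℝ} (hp : 1 < p) (hX : HasMarkovType X p) {θ : ℝ} (hθ : 0 < θ) :
    ∃ η, 0 < η ∧ ∃ m, ¬ Thresh X θ η m := by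
  by_contra hcon
  push Not at hcon
  obtain ⟨K, hK, hMT⟩ := hX
  have hp0 : 0 < p := by linarith
  choose F h1 h2 h3 h4 h5 h6 using approx_cost (C := K ^ p) hp0 hθ hMT hcon
  have hlim : ∀ a, ∃ l, Tendsto (fun r => F r a) (hyperfilter ℕ) (𝓝 l) := by
    intro a
    obtain ⟨L, hL⟩ := exists_bound a
    have hb : ∀ r, F r a ∈ Set.Icc 0 ((∑ x ∈ range L, |a x|) ^ p) := by
      intro r
      refine ⟨h1 r a, ?_⟩
      have := h5 r L a id
      rwa [vec_self a L hL] at this
    obtain ⟨l, _, hl⟩ := (isCompact_Icc (a := (0 : ℝ)) (b := (∑ x ∈ range L, |a x|) ^ p)).ultrafilter_le_nhds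
      ((hyperfilter ℕ).map (fun r => F r a)) (by
        rw [Ultrafilter.coe_map, le_principal_iff, Filter.mem_map]
        exact Eventually.of_forall hb)
    exact ⟨l, hl⟩
  choose Φ hΦ using hlim
  have hle : (hyperfilter ℕ : Filter ℕ) ≤ atTop := by
    rw [← Nat.cofinite_eq_atTop]; exact hyperfilter_le_cofinite
  have hε : Tendsto (fun r : ℕ => 1 / ((r : ℝ) + 1)) (hyperfilter ℕ) (𝓝 0) :=
    tendsto_one_div_add_atTop_nhds_zero_nat.mono_left hle
  have hsp : ∀ L b η η', IncBelow L η → IncBelow L η' → Φ (vec L b η) ≤ Φ (vec L b η') := by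
    intro L b η η' e1 e2
    have t2 := (hΦ (vec L b η')).add (hε.mul_const ((∑ x ∈ range L, |b x|) ^ p))
    rw [zero_mul, add_zero] at t2
    refine le_of_tendsto_of_tendsto (hΦ _) t2 ?_
    have ev : ∀ᶠ r in (hyperfilter ℕ : Filter ℕ),
        (range L).sup η + (range L).sup η' + 1 ≤ r := hle (eventually_ge_atTop _)
    filter_upwards [ev] with r hr
    apply h4 r L b η η' e1 e2
    · intro l hl
      have := Finset.le_sup (f := η) (mem_range.mpr hl); omega
    · intro l hl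
      have := Finset.le_sup (f := η') (mem_range.mpr hl); omega
  apply not_goodCost (κ := (θ / 4) ^ p) (C := K ^ p) (Φ := Φ) hp (by positivity) (by positivity)
  refine ⟨fun a => ge_of_tendsto' (hΦ a) (fun r => h1 r a), ?_, ?_, ?_, ?_, ?_⟩
  · intro c a
    refine tendsto_nhds_unique (hΦ _) ?_
    simp only [h2]
    exact (hΦ a).const_mul _
  · intro S _ _ π P hP f t ht
    refine le_of_tendsto_of_tendsto' (b := (hyperfilter ℕ : Filter ℕ)) ?_ ?_
      (fun r => h3 r S π P hP f t ht)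
    · exact tendsto_finsetSum _ (fun i _ => tendsto_finsetSum _
        (fun j _ => (hΦ _).const_mul _))
    · exact (tendsto_finsetSum _ (fun i _ => tendsto_finsetSum _
        (fun j _ => (hΦ _).const_mul _))).const_mul _
  · intro L b η η' e1 e2
    exact le_antisymm (hsp L b η η' e1 e2) (hsp L b η' η e2 e1)
  · intro L b η
    exact le_of_tendsto' (hΦ _) (fun r => h5 r L b η)
  · intro a c c' hcc ht
    obtain ⟨L, hL⟩ := exists_bound a
    have hv := vec_self a L hL
    refine ge_of_tendsto (hΦ a) ?_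
    have ev : ∀ᶠ r in (hyperfilter ℕ : Filter ℕ), c' + L ≤ r := hle (eventually_ge_atTop _)
    have t2 := hε.mul_const (∑ x ∈ range L, |a x|)
    rw [zero_mul] at t2
    have ev2 := t2.eventually_le_const (show (0 : ℝ) < θ / 4 by positivity)
    filter_upwards [ev, ev2] with r hr hr2
    have := h6 r L a c c' hcc (by omega) (by omega) (by rw [hv]; exact ht) hr2
    rwa [hv] at this

end Vale.Agent.P125
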