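import Vale.Agent.P125.Tree
import Vale.Agent.P125.Limit

/-! Renormings. -/

namespace Vale.Agent.P125

open Filter Topology

variable {X : Type*} [NormedAddCommGroup X] [NormedSpace ℝ X]

/-- quantitative uniform smoothness -/
def QSmooth (N : Seminorm ℝ X) : Prop :=
  ∀ ε : ℝ, 0 < ε → ∃ τ0 : ℝ, 0 < τ0 ∧ ∀ τ, 0 < τ → τ ≤ τ0 → ∀ x y, N x ≤ 1 → N y ≤ 1 →
    N (x + τ • y) + N (x - τ • y) ≤ 2 + 2 * (ε * τ)

set_option maxHeartbeats 1600000 in
theorem renorm_of_nearNorm (G : X → ℝ) (hG : NearNorm G 1)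
    (hs : ∀ δ : ℝ, 0 < δ → ∃ ε : ℝ, 0 < ε ∧
      ∀ y, ‖y‖ ≤ ε → ∀ x, G (x + y) + G (x - y) ≤ 2 * G x + 2 * (δ * ‖y‖)) :
    ∃ N : Seminorm ℝ X, (∀ x, 2 * ‖x‖ ≤ N x ∧ N x ≤ 5 * ‖x‖) ∧ QSmooth N := by
  let s : X → Set ℝ := fun x => {v | ∃ l : ℝ, 0 < l ∧ v = l * (G (l⁻¹ • x) ^ 2 + 1)}
  have hG0 : ∀ x, 0 ≤ G x := fun x => (norm_nonneg x).trans (hG.lower x)
  have hnorm : ∀ (l : ℝ) (x : X), 0 < l → l * ‖l⁻¹ • x‖ = ‖x‖ := by
    intro l x hl
    rw [norm_smul, norm_inv, Real.norm_of_nonneg hl.le, ← mul_assoc, mul_inv_cancel₀ hl.ne',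
      one_mul]
  have hne : ∀ x, (s x).Nonempty := fun x => ⟨_, 1, one_pos, rfl⟩
  have hlb : ∀ x, ∀ v ∈ s x, 2 * ‖x‖ ≤ v := by
    rintro x _ ⟨l, hl, rfl⟩
    have h1 := hG.lower (l⁻¹ • x)
    have h2 := hnorm l x hl
    have h3 : 2 * G (l⁻¹ • x) ≤ G (l⁻¹ • x) ^ 2 + 1 := by nlinarith [sq_nonneg (G (l⁻¹ • x) - 1)]
    nlinarith
  have hbdd : ∀ x, BddBelow (s x) := fun x => ⟨_, hlb x⟩
  have hle : ∀ x (l : ℝ), 0 < l → sInf (s x) ≤ l * (G (l⁻¹ • x) ^ 2 + 1) :=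
    fun x l hl => csInf_le (hbdd x) ⟨l, hl, rfl⟩
  have hlow : ∀ x, 2 * ‖x‖ ≤ sInf (s x) := fun x => le_csInf (hne x) (hlb x)
  have hzero : sInf (s 0) = 0 := by
    apply le_antisymm
    · apply le_of_forall_pos_le_add
      intro η hη
      have h1 := hle 0 (η / 2) (by positivity)
      have h2 := hG.upper 0
      have h3 := hG0 0
      rw [smul_zero] at h1
      rw [norm_zero, zero_add] at h2
      have h4 : G 0 ^ 2 ≤ 1 := by nlinarith
      nlinarith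
    · simpa using hlow 0
  have hup : ∀ x, sInf (s x) ≤ 5 * ‖x‖ := by
    intro x
    by_cases h0 : x = 0
    · rw [h0, hzero]; simp
    have hpos : 0 < ‖x‖ := norm_pos_iff.mpr h0
    have h1 := hle x ‖x‖ hpos
    have h2 := hG.upper (‖x‖⁻¹ • x)
    have h3 := hG0 (‖x‖⁻¹ • x)
    rw [norm_smul, norm_inv, norm_norm, inv_mul_cancel₀ hpos.ne'] at h2
    have h4 : G (‖x‖⁻¹ • x) ^ 2 ≤ 4 := by nlinarith
    nlinarith
  have hadd : ∀ x y, sInf (s (x + y)) ≤ sInf (s x) + sInf (s y) := by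
    intro x y
    have key : ∀ a ∈ s x, ∀ b ∈ s y, sInf (s (x + y)) ≤ a + b := by
      rintro _ ⟨l1, h1, rfl⟩ _ ⟨l2, h2, rfl⟩
      have hl : 0 < l1 + l2 := by positivity
      refine (hle _ _ hl).trans ?_
      have h3 := hG.convex (l1 / (l1 + l2)) (l2 / (l1 + l2)) (by positivity) (by positivity)
        (by field_simp) (l1⁻¹ • x) (l2⁻¹ • y)
      have e : (l1 / (l1 + l2)) • l1⁻¹ • x + (l2 / (l1 + l2)) • l2⁻¹ • y
          = (l1 + l2)⁻¹ • (x + y) := by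
        rw [smul_smul, smul_smul, smul_add]
        congr 2 <;> field_simp
      rw [e] at h3
      set A := G (l1⁻¹ • x)
      set B := G (l2⁻¹ • y)
      have h4 : G ((l1 + l2)⁻¹ • (x + y)) ^ 2 ≤ (l1 / (l1 + l2) * A + l2 / (l1 + l2) * B) ^ 2 :=
        pow_le_pow_left₀ (hG0 _) h3 2
      have h5 : (l1 + l2) * (l1 / (l1 + l2) * A + l2 / (l1 + l2) * B) ^ 2
          ≤ l1 * A ^ 2 + l2 * B ^ 2 := by
        have : (l1 + l2) * (l1 / (l1 + l2) * A + l2 / (l1 + l2) * B) ^ 2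
            = (l1 * A + l2 * B) ^ 2 / (l1 + l2) := by field_simp
        rw [this, div_le_iff₀ hl]
        nlinarith [mul_nonneg (mul_pos h1 h2).le (sq_nonneg (A - B))]
      nlinarith
    have h1 : ∀ b ∈ s y, sInf (s (x + y)) - sInf (s x) ≤ b := by
      intro b hb
      have : sInf (s (x + y)) - b ≤ sInf (s x) :=
        le_csInf (hne x) (fun a ha => by have := key a ha b hb; linarith)
      linarith
    have := le_csInf (hne y) h1
    linarith
  have hsmul : ∀ (r : ℝ) x, sInf (s (r • x)) ≤ ‖r‖ * sInf (s x) := by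
    intro r x
    by_cases h0 : r = 0
    · rw [h0, zero_smul, hzero]; simp
    have hpos : 0 < |r| := abs_pos.mpr h0
    rw [Real.norm_eq_abs, mul_comm, ← div_le_iff₀ hpos]
    apply le_csInf (hne x)
    rintro _ ⟨l, hl, rfl⟩
    rw [div_le_iff₀ hpos]
    have h1 := hle (r • x) (|r| * l) (by positivity)
    have e : G ((|r| * l)⁻¹ • r • x) = G (l⁻¹ • x) := by
      rw [smul_smul]
      rcases lt_or_gt_of_ne h0 with h | h
      · rw [abs_of_neg h, ← hG.even, ← neg_smul]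
        congr 2; field_simp
      · rw [abs_of_pos h]
        congr 2; field_simp
    rw [e] at h1
    linarith
  let N : Seminorm ℝ X := Seminorm.ofSMulLE (fun x => sInf (s x)) hzero hadd hsmul
  have hN : ∀ x, N x = sInf (s x) := fun _ => rfl
  refine ⟨N, fun x => ⟨hlow x, hup x⟩, ?_⟩
  intro ε hε
  obtain ⟨ε', hε', hs'⟩ := hs (ε / 16000) (by positivity)
  refine ⟨min (min (1 / 2) (ε / 40000)) (ε' / 100), by positivity, ?_⟩
  intro τ hτ hτ0 x y hx hy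
  have t1 : τ ≤ 1 / 2 := hτ0.trans ((min_le_left _ _).trans (min_le_left _ _))
  have t2 : τ ≤ ε / 40000 := hτ0.trans ((min_le_left _ _).trans (min_le_right _ _))
  have t3 : τ ≤ ε' / 100 := hτ0.trans (min_le_right _ _)
  by_cases hsmall : N x ≤ 1 / 2
  · have h1 := map_add_le_add N x (τ • y)
    have h2 := map_sub_le_add N x (τ • y)
    rw [map_smul_eq_mul, Real.norm_of_nonneg hτ.le] at h1 h2
    have h3 : τ * N y ≤ τ := mul_le_of_le_one_right hτ.le hy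
    have h4 : 0 ≤ ε * τ := by positivity
    linarith
  push Not at hsmall
  apply le_of_forall_pos_le_add
  intro η hη
  obtain ⟨_, ⟨l, hl, rfl⟩, hlt⟩ := exists_lt_of_csInf_lt (hne x)
    (show sInf (s x) < sInf (s x) + min (η / 2) 1 by
      have : 0 < min (η / 2) 1 := by positivity
      linarith)
  rw [← hN] at hlt
  have m1 := min_le_left (η / 2) 1
  have m2 := min_le_right (η / 2) 1
  set u := l⁻¹ • x with hu
  set v := l⁻¹ • τ • y with hv
  have hx1 : 1 / 10 ≤ ‖x‖ := by have := hup x; rw [← hN] at this; linarith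
  have hy1 : ‖y‖ ≤ 1 / 2 := by have := hlow y; rw [← hN] at this; linarith
  have g0 := hG0 u
  have g1 : l * G u ^ 2 + l ≤ 2 := by linarith
  have g2 : 0 ≤ l * G u ^ 2 := by positivity
  have hl2 : l ≤ 2 := by linarith
  have g3 : 1 / 10 ≤ l * G u := by
    have := mul_le_mul_of_nonneg_left (hG.lower u) hl.le
    rw [hu, hnorm l x hl] at this
    linarith
  have g4 : G u ≤ 20 := by nlinarith
  have hl1 : 1 / 200 ≤ l := by nlinarith
  have hv1 : ‖v‖ ≤ 100 * τ := by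
    have h1 := hnorm l (τ • y) hl
    rw [norm_smul τ, Real.norm_of_nonneg hτ.le, ← hv] at h1
    have h2 := norm_nonneg v
    nlinarith
  have hv0 := norm_nonneg v
  have a1 := hG.lip (u + v) u
  have a2 := hG.lip u (u + v)
  have b1 := hG.lip (u - v) u
  have b2 := hG.lip u (u - v)
  rw [add_sub_cancel_left] at a1
  rw [sub_add_cancel_left, norm_neg] at a2
  rw [sub_sub_cancel_left, norm_neg] at b1
  rw [sub_sub_cancel] at b2
  have ab := hs' v (by linarith) u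
  have p1 := hle (x + τ • y) l hl
  have p2 := hle (x - τ • y) l hl
  rw [smul_add, ← hu, ← hv, ← hN] at p1
  rw [smul_sub, ← hu, ← hv, ← hN] at p2
  set a := G (u + v) - G u with ha
  set b := G (u - v) - G u with hb
  have ea : G (u + v) = G u + a := by rw [ha]; ring
  have eb : G (u - v) = G u + b := by rw [hb]; ring
  have a3 : a ^ 2 ≤ (100 * τ) ^ 2 := sq_le_sq' (by linarith) (by linarith)
  have b3 : b ^ 2 ≤ (100 * τ) ^ 2 := sq_le_sq' (by linarith) (by linarith)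
  have ab1 : a + b ≤ ε / 80 * τ := by
    have : ε / 16000 * ‖v‖ ≤ ε / 16000 * (100 * τ) := by gcongr
    linarith
  have ab2 : G u * (a + b) ≤ 20 * (ε / 80 * τ) := by
    calc G u * (a + b) ≤ G u * (ε / 80 * τ) := by gcongr
      _ ≤ _ := by gcongr
  have q1 : 2 * (G u * (a + b)) + a ^ 2 + b ^ 2 ≤ ε * τ := by
    have : τ * τ ≤ ε / 40000 * τ := by gcongr
    nlinarith
  have q2 : l * (2 * (G u * (a + b)) + a ^ 2 + b ^ 2) ≤ 2 * (ε * τ) := by
    calc _ ≤ l * (ε * τ) := by gcongr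
      _ ≤ _ := by gcongr
  rw [ea] at p1
  rw [eb] at p2
  nlinarith

theorem QSmooth.isUniformlySmooth {N : Seminorm ℝ X} (h : QSmooth N) : IsUniformlySmooth N := by
  unfold IsUniformlySmooth
  rw [Metric.tendsto_nhdsWithin_nhds]
  intro ε hε
  obtain ⟨τ0, h0, h1⟩ := h (ε / 2) (by positivity)
  refine ⟨τ0, h0, fun τ hτ hd => ?_⟩
  have hτ' : 0 < τ := hτ
  rw [Real.dist_eq, sub_zero, abs_of_pos hτ'] at hd
  have hlo : 0 ≤ smoothModulus N τ := by
    apply Real.sSup_nonneg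
    rintro _ ⟨x, y, hx, _, rfl⟩
    have h2 := map_add_le_add N (x + τ • y) (x - τ • y)
    have e : x + τ • y + (x - τ • y) = (2 : ℝ) • x := by rw [two_smul]; abel
    rw [e, map_smul_eq_mul, hx] at h2
    norm_num at h2
    linarith
  have hhi : smoothModulus N τ ≤ ε / 2 * τ := by
    apply Real.sSup_le _ (by positivity)
    rintro _ ⟨x, y, hx, hy, rfl⟩
    have := h1 τ hτ' hd.le x y hx.le hy.le
    linarith
  rw [Real.dist_eq, sub_zero, abs_of_nonneg (div_nonneg hlo hτ'.le), div_lt_iff₀ hτ']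
  nlinarith

theorem smooth_of_norming (F : Set (X → ℝ)) (hlin : ∀ f ∈ F, IsLinearMap ℝ f)
    (hbd : ∀ f ∈ F, ∀ z, ‖z‖ ≤ 1 → |f z| ≤ 1)
    (hnorm : ∀ x, ∀ η : ℝ, 0 < η → ∃ f ∈ F, ‖x‖ ≤ f x + η)
    (hno : ∀ θ : ℝ, 0 < θ → ∃ η, 0 < η ∧ η ≤ θ ∧ ∃ m, ¬ FThresh F {z | ‖z‖ ≤ 1} θ η m) :
    ∃ N : Seminorm ℝ X, (∀ x, 2 * ‖x‖ ≤ N x ∧ N x ≤ 5 * ‖x‖) ∧ QSmooth N := by
  obtain ⟨G, h1, h2⟩ := multi_scale (sublinear F hlin hbd hnorm hno)
  exact renorm_of_nearNorm G h1 h2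

theorem Thresh.mono {θ η η' : ℝ} {m : ℕ} (h : Thresh X θ η m) (hη : η ≤ η') :
    Thresh X θ η' m := by
  obtain ⟨x, φ, α, β, h1, h2, h3, h4⟩ := h
  exact ⟨x, φ, α, β, h1, h2, h3, fun i hi j hj =>
    ⟨fun h => ((h4 i hi j hj).1 h).trans hη, fun h => ((h4 i hi j hj).2 h).trans hη⟩⟩

theorem no_thresh' {p : ℝ} (hp : 1 < p) (hX : HasMarkovType X p) {θ : ℝ} (hθ : 0 < θ) :
    ∃ η, 0 < η ∧ η ≤ θ ∧ ∃ m, ¬ Thresh X θ η m := by
  obtain ⟨η, h1, m, h2⟩ := no_thresh hp hX hθ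
  exact ⟨min η θ, by positivity, min_le_right _ _, m, fun h => h2 (h.mono (min_le_left _ _))⟩

theorem abs_apply_le_one {φ : X →L[ℝ] ℝ} {z : X} (h1 : ‖φ‖ ≤ 1) (h2 : ‖z‖ ≤ 1) : |φ z| ≤ 1 := by
  have := φ.le_opNorm z
  rw [Real.norm_eq_abs] at this
  exact this.trans (mul_le_one₀ h1 (norm_nonneg _) h2)

theorem exists_smooth {p : ℝ} (hp : 1 < p) (hX : HasMarkovType X p) :
    ∃ N : Seminorm ℝ X, IsEquivNorm N ∧ IsUniformlySmooth N := by
  obtain ⟨N, h1, h2⟩ := smooth_of_norming (X := X) {f | ∃ φ : X →L[ℝ] ℝ, ‖φ‖ ≤ 1 ∧ f = φ}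
    (by rintro _ ⟨φ, _, rfl⟩; exact ⟨φ.map_add, φ.map_smul⟩)
    (by rintro _ ⟨φ, h, rfl⟩ z hz; exact abs_apply_le_one h hz)
    (by
      intro x η hη
      obtain ⟨g, h1, h2⟩ := exists_dual_vector'' ℝ x
      refine ⟨g, ⟨g, h1, rfl⟩, ?_⟩
      rw [h2]; simp [hη.le])
    (by
      intro θ hθ
      obtain ⟨η, h1, h2, m, h3⟩ := no_thresh' hp hX hθ
      refine ⟨η, h1, h2, m, ?_⟩
      rintro ⟨x, φ, α, β, g1, g2, g3, g4⟩
      choose ψ hψ hφ using g3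
      refine h3 ⟨x, ψ, α, β, g1, g2, hψ, ?_⟩
      simpa only [hφ] using g4)
  exact ⟨N, ⟨2, 5, by norm_num, by norm_num, h1⟩, h2.isUniformlySmooth⟩

theorem exists_convex {p : ℝ} (hp : 1 < p) (hX : HasMarkovType X p) :
    ∃ N : Seminorm ℝ X, IsEquivNorm N ∧ IsUniformlyConvex N := by
  obtain ⟨M, h1, h2⟩ := smooth_of_norming (X := X →L[ℝ] ℝ)
    {f | ∃ x : X, ‖x‖ ≤ 1 ∧ f = fun φ => φ x}
    (by rintro _ ⟨x, _, rfl⟩; exact ⟨fun _ _ => rfl, fun _ _ => rfl⟩)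
    (by rintro _ ⟨x, h, rfl⟩ φ hφ; exact abs_apply_le_one hφ h)
    (by
      intro φ η hη
      obtain ⟨x, h1, h2⟩ := φ.exists_lt_apply_of_lt_opNorm (r := ‖φ‖ - η) (by linarith)
      rcases le_total 0 (φ x) with h | h
      · refine ⟨_, ⟨x, h1.le, rfl⟩, ?_⟩
        rw [Real.norm_of_nonneg h] at h2
        linarith
      · refine ⟨_, ⟨-x, by simpa using h1.le, rfl⟩, ?_⟩
        rw [Real.norm_of_nonpos h] at h2
        simp only [map_neg]; linarith)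
    (by
      intro θ hθ
      obtain ⟨η, h1, h2, m, h3⟩ := no_thresh' hp hX hθ
      refine ⟨η, h1, h2, m, ?_⟩
      rintro ⟨φ, f, α, β, g1, g2, g3, g4⟩
      choose x hx hf using g3
      refine h3 ⟨fun i => x (m - 1 - i), fun i => φ (m - 1 - i), α, β, g1, fun _ => hx _,
        fun _ => g2 _, ?_⟩
      intro i hi j hj
      have := g4 (m - 1 - j) (by omega) (m - 1 - i) (by omega)
      simp only [hf] at this
      exact ⟨fun h => this.1 (by omega), fun h => this.2 (by omega)⟩)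
  let s : X → Set ℝ := fun x => {v | ∃ φ : X →L[ℝ] ℝ, M φ ≤ 1 ∧ v = φ x}
  have hne : ∀ x, (s x).Nonempty := fun x => ⟨_, 0, by simp, rfl⟩
  have hub : ∀ x, ∀ v ∈ s x, v ≤ 1 / 2 * ‖x‖ := by
    rintro x _ ⟨φ, hφ, rfl⟩
    have e1 := φ.le_opNorm x
    have e2 := (h1 φ).1
    have e3 : ‖φ‖ * ‖x‖ ≤ 1 / 2 * ‖x‖ := mul_le_mul_of_nonneg_right (by linarith) (norm_nonneg _)
    exact (le_abs_self _).trans (e1.trans e3)
  have hle : ∀ x (φ : X →L[ℝ] ℝ), M φ ≤ 1 → φ x ≤ sSup (s x) :=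
    fun x φ h => le_csSup ⟨_, hub x⟩ ⟨φ, h, rfl⟩
  have hzero : sSup (s 0) = 0 := by
    apply le_antisymm
    · simpa using csSup_le (hne 0) (hub 0)
    · simpa using hle 0 0 (by simp)
  have hadd : ∀ x y, sSup (s (x + y)) ≤ sSup (s x) + sSup (s y) := by
    intro x y
    apply csSup_le (hne _)
    rintro _ ⟨φ, hφ, rfl⟩
    rw [map_add]
    exact add_le_add (hle x φ hφ) (hle y φ hφ)
  have hsmul : ∀ (r : ℝ) x, sSup (s (r • x)) ≤ ‖r‖ * sSup (s x) := by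
    intro r x
    apply csSup_le (hne _)
    rintro _ ⟨φ, hφ, rfl⟩
    rw [map_smul, smul_eq_mul]
    rcases le_total 0 r with h | h
    · rw [Real.norm_of_nonneg h]
      exact mul_le_mul_of_nonneg_left (hle x φ hφ) h
    · rw [Real.norm_of_nonpos h]
      have := mul_le_mul_of_nonneg_left (hle x (-φ) (by simpa using hφ)) (neg_nonneg.mpr h)
      simpa using this
  let N : Seminorm ℝ X := Seminorm.ofSMulLE (fun x => sSup (s x)) hzero hadd hsmul
  have hN : ∀ x, N x = sSup (s x) := fun _ => rfl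
  have hdual : ∀ (φ : X →L[ℝ] ℝ) x, N x ≤ 1 → φ x ≤ M φ := by
    intro φ x hx
    by_cases h0 : φ = 0
    · simp [h0]
    have hpos : 0 < M φ := by
      have := (h1 φ).1
      have := norm_pos_iff.mpr h0
      linarith
    have := hle x ((M φ)⁻¹ • φ) (by
      rw [map_smul_eq_mul, norm_inv, Real.norm_of_nonneg hpos.le, inv_mul_cancel₀ hpos.ne'])
    rw [← hN, smul_apply, smul_eq_mul, inv_mul_le_iff₀ hpos] at this
    exact this.trans (mul_le_of_le_one_right hpos.le hx)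
  refine ⟨N, ⟨1 / 5, 1 / 2, by norm_num, by norm_num, fun x => ⟨?_, csSup_le (hne x) (hub x)⟩⟩, ?_⟩
  · obtain ⟨g, g1, g2⟩ := exists_dual_vector'' ℝ x
    have := hle x ((1 / 5 : ℝ) • g) (by
      refine (h1 _).2.trans ?_
      rw [norm_smul]; norm_num; linarith)
    rw [smul_apply, g2] at this
    rw [hN]
    simpa using this
  · intro ε hε _
    obtain ⟨τ, hτ, h3⟩ := h2 (ε / 8) (by positivity)
    refine ⟨ε * τ / 8, by positivity, fun x y hx hy hxy => ?_⟩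
    obtain ⟨_, ⟨ψ, hψ, rfl⟩, hlt⟩ := exists_lt_of_lt_csSup (hne (x - y))
      (show ε / 2 < sSup (s (x - y)) by rw [← hN]; linarith)
    rw [hN]
    apply csSup_le (hne _)
    rintro _ ⟨φ, hφ, rfl⟩
    have e1 := h3 τ hτ le_rfl φ ψ hφ hψ
    have e2 := hdual (φ + τ • ψ) x hx
    have e3 := hdual (φ - τ • ψ) y hy
    simp only [add_apply, sub_apply,
      smul_apply, smul_eq_mul, map_sub, map_add, map_smul] at e2 e3 hlt ⊢
    have e4 := mul_lt_mul_of_pos_left hlt hτ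
    nlinarith

end Vale.Agent.P125
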