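import Vale.Agent.P125.Experts

/-! Dyadic martingales as trees; Bellman functions. -/

namespace Vale.Agent.P125

open Finset

/-- labelled binary trees describing finite dyadic martingales -/
inductive BT (X : Type*) where
  | leaf : BT X
  | node : ℕ → X → BT X → BT X → BT X

variable {X : Type*} [NormedAddCommGroup X] [NormedSpace ℝ X]

namespace BT

/-- expected final norm minus expected cost -/
noncomputable def val (c : ℕ → X → ℝ) : BT X → X → ℝ
  | leaf, x => ‖x‖
  | node i y l r, x => (val c l (x + y) + val c r (x - y)) / 2 - c i y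

/-- admissible trees -/
def adm {X : Type*} (A : ℕ → X → Prop) : BT X → Prop
  | leaf => True
  | node i y l r => A i y ∧ adm A l ∧ adm A r

/-- depth -/
def depth {X : Type*} : BT X → ℕ
  | leaf => 0
  | node _ _ l r => max (depth l) (depth r) + 1

/-- bound on labels -/
def lab {X : Type*} : BT X → ℕ
  | leaf => 0
  | node i _ l r => max (i + 1) (max (lab l) (lab r))

/-- mirror image -/
def mirror {X : Type*} : BT X → BT X
  | leaf => leaf
  | node i y l r => node i y (mirror r) (mirror l)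

omit [NormedSpace ℝ X] in
theorem val_mirror (c : ℕ → X → ℝ) (T : BT X) : ∀ x, val c (mirror T) (-x) = val c T x := by
  induction T with
  | leaf => intro x; simp [val, mirror]
  | node i y l r ihl ihr =>
    intro x
    simp only [val, mirror]
    rw [show -x + y = -(x - y) by abel, show -x - y = -(x + y) by abel, ihl, ihr, add_comm]

theorem adm_mirror {X : Type*} (A : ℕ → X → Prop) (T : BT X) : adm A T → adm A (mirror T) := by
  induction T with
  | leaf => exact id
  | node i y l r ihl ihr => exact fun h => ⟨h.1, ihr h.2.2, ihl h.2.1⟩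

omit [NormedSpace ℝ X] in
theorem val_lip (c : ℕ → X → ℝ) (T : BT X) : ∀ x x', val c T x ≤ val c T x' + ‖x - x'‖ := by
  induction T with
  | leaf => intro x x'; simp only [val]; exact norm_le_insert' x x'
  | node i y l r ihl ihr =>
    intro x x'
    simp only [val]
    have h1 := ihl (x + y) (x' + y)
    have h2 := ihr (x - y) (x' - y)
    rw [add_sub_add_right_eq_sub] at h1
    rw [sub_sub_sub_cancel_right] at h2
    linarith

theorem val_convex (c : ℕ → X → ℝ) (T : BT X) {a b : ℝ} (ha : 0 ≤ a) (hb : 0 ≤ b)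
    (hab : a + b = 1) : ∀ x x', val c T (a • x + b • x') ≤ a * val c T x + b * val c T x' := by
  induction T with
  | leaf =>
    intro x x'
    simp only [val]
    refine (norm_add_le _ _).trans (le_of_eq ?_)
    rw [norm_smul, norm_smul, Real.norm_of_nonneg ha, Real.norm_of_nonneg hb]
  | node i y l r ihl ihr =>
    intro x x'
    simp only [val]
    have hy : y = a • y + b • y := by rw [← add_smul, hab, one_smul]
    have h1 := ihl (x + y) (x' + y)
    have h2 := ihr (x - y) (x' - y)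
    have e1 : a • x + b • x' + y = a • (x + y) + b • (x' + y) := by
      conv_lhs => rw [hy]
      simp only [smul_add]; abel
    have e2 : a • x + b • x' - y = a • (x - y) + b • (x' - y) := by
      conv_lhs => rw [hy]
      simp only [smul_sub]; abel
    rw [e1, e2]
    have e3 : c i y = a * c i y + b * c i y := by rw [← add_mul, hab, one_mul]
    nlinarith

end BT

theorem sSup_add_le {s t : Set ℝ} (hs : s.Nonempty) (ht : t.Nonempty) {B : ℝ}
    (h : ∀ a ∈ s, ∀ b ∈ t, a + b ≤ B) : sSup s + sSup t ≤ B := by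
  have h1 : ∀ b ∈ t, b ≤ B - sSup s := by
    intro b hb
    have : sSup s ≤ B - b := csSup_le hs (fun a ha => by have := h a ha b hb; linarith)
    linarith
  have := csSup_le ht h1
  linarith

/-- even, convex, `1`-Lipschitz functions within `a` of the norm -/
structure NearNorm (G : X → ℝ) (a : ℝ) : Prop where
  even : ∀ x, G (-x) = G x
  convex : ∀ (s t : ℝ), 0 ≤ s → 0 ≤ t → s + t = 1 → ∀ x x', G (s • x + t • x') ≤ s * G x + t * G x'
  lip : ∀ x x', G x ≤ G x' + ‖x - x'‖
  lower : ∀ x, ‖x‖ ≤ G x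
  upper : ∀ x, G x ≤ ‖x‖ + a

theorem tree_sup (c : ℕ → X → ℝ) (A : ℕ → X → Prop) (a : ℝ)
    (h : ∀ T : BT X, T.adm A → T.val c 0 ≤ a) :
    ∃ G : X → ℝ, NearNorm G a ∧ ∀ i y, A i y → ∀ x, G (x + y) + G (x - y) ≤ 2 * G x + 2 * c i y := by
  let s : X → Set ℝ := fun x => {v | ∃ T : BT X, T.adm A ∧ v = T.val c x}
  have hne : ∀ x, (s x).Nonempty := fun x => ⟨_, BT.leaf, trivial, rfl⟩
  have hub : ∀ x, ∀ v ∈ s x, v ≤ ‖x‖ + a := by
    rintro x _ ⟨T, hT, rfl⟩
    have := T.val_lip c x 0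
    have := h T hT
    rw [sub_zero] at *
    linarith
  have hbdd : ∀ x, BddAbove (s x) := fun x => ⟨_, hub x⟩
  have hle : ∀ x (T : BT X), T.adm A → T.val c x ≤ sSup (s x) :=
    fun x T hT => le_csSup (hbdd x) ⟨T, hT, rfl⟩
  have hev : ∀ x, sSup (s x) ≤ sSup (s (-x)) := by
    intro x
    apply csSup_le (hne _)
    rintro _ ⟨T, hT, rfl⟩
    rw [← T.val_mirror]
    exact hle _ _ (T.adm_mirror A hT)
  refine ⟨fun x => sSup (s x), ⟨?_, ?_, ?_, ?_, ?_⟩, ?_⟩
  · intro x
    refine le_antisymm ?_ (hev x)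
    have := hev (-x)
    rwa [neg_neg] at this
  · intro a b ha hb hab x x'
    apply csSup_le (hne _)
    rintro _ ⟨T, hT, rfl⟩
    refine (T.val_convex c ha hb hab x x').trans ?_
    have := hle x T hT
    have := hle x' T hT
    gcongr
  · intro x x'
    apply csSup_le (hne _)
    rintro _ ⟨T, hT, rfl⟩
    have := T.val_lip c x x'
    have := hle x' T hT
    linarith
  · intro x
    exact hle x BT.leaf trivial
  · intro x
    exact csSup_le (hne _) (hub x)
  · intro i y hy x
    apply sSup_add_le (hne _) (hne _)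
    rintro _ ⟨l, hl, rfl⟩ _ ⟨r, hr, rfl⟩
    have := hle x (BT.node i y l r) ⟨hy, hl, hr⟩
    simp only [BT.val] at this
    linarith

/-- Massart-type bound along a tree -/
theorem massart (F : Set (X → ℝ)) (hlin : ∀ f ∈ F, IsLinearMap ℝ f)
    (hnorm : ∀ x, ∀ η : ℝ, 0 < η → ∃ f ∈ F, ‖x‖ ≤ f x + η) {ι : Type} [Fintype ι] [Nonempty ι]
    (n : ℕ) (θ lam : ℝ) (hθ : 0 ≤ θ) (hlam : 0 < lam) (w : ι → (ℕ → X) → ℕ → ℝ)
    (hw1 : ∀ i z k, |w i z k| ≤ 1)
    (hw2 : ∀ i z z' k, (∀ j, j ≤ k → z j = z' j) → w i z k = w i z' k)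
    (hw3 : ∀ (z : ℕ → X), ∀ f ∈ F, ∃ i, ∀ k, k < n → ‖z k‖ ≤ 1 → |f (z k) - w i z k| ≤ θ)
    (T : BT X) : ∀ (k : ℕ) (z : ℕ → X) (e : ℕ → ℝ), T.adm (fun _ y => ‖y‖ ≤ 1) →
      k + T.depth ≤ n → (∀ j, j < k → ‖z j‖ ≤ 1) → (∀ j, |e j| ≤ 1) →
      T.val (fun _ _ => 0) (∑ j ∈ range k, e j • z j) ≤ θ * n +
        Real.log (∑ i, Real.exp (lam * ∑ j ∈ range k, e j * w i z j)) / lam
        + lam * T.depth / 2 := by
  classical
  induction T with
  | leaf =>
    intro k z e _ hk hz he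
    simp only [BT.val, BT.depth, Nat.cast_zero, mul_zero, zero_div, add_zero] at hk ⊢
    apply le_of_forall_pos_le_add
    intro η hη
    obtain ⟨f, hf, h1⟩ := hnorm (∑ j ∈ range k, e j • z j) η hη
    obtain ⟨i, hi⟩ := hw3 z f hf
    have h2 : f (∑ j ∈ range k, e j • z j) = ∑ j ∈ range k, e j * f (z j) := by
      have := map_sum ((hlin f hf).mk' f) (fun j => e j • z j) (range k)
      simp only [IsLinearMap.mk'_apply] at this
      rw [this]
      exact sum_congr rfl (fun j _ => (hlin f hf).map_smul _ _)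
    have h3 : ∑ j ∈ range k, e j * f (z j) ≤ ∑ j ∈ range k, (e j * w i z j + θ) := by
      apply sum_le_sum
      intro j hj
      have hj' := mem_range.mp hj
      have h4 := hi j (by omega) (hz j hj')
      have h5 : |e j * (f (z j) - w i z j)| ≤ 1 * θ := by
        rw [abs_mul]; exact mul_le_mul (he j) h4 (abs_nonneg _) zero_le_one
      have := (abs_le.mp h5).2
      linarith
    rw [sum_add_distrib, sum_const, card_range, nsmul_eq_mul] at h3
    have h6 : (k : ℝ) * θ ≤ θ * n := by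
      rw [mul_comm]; exact mul_le_mul_of_nonneg_left (by exact_mod_cast hk) hθ
    have h7 : ∑ j ∈ range k, e j * w i z j ≤
        Real.log (∑ i, Real.exp (lam * ∑ j ∈ range k, e j * w i z j)) / lam := by
      rw [le_div_iff₀ hlam, Real.le_log_iff_exp_le (sum_pos (fun _ _ => Real.exp_pos _) univ_nonempty),
        mul_comm]
      exact single_le_sum (f := fun i => Real.exp (lam * ∑ j ∈ range k, e j * w i z j))
        (fun _ _ => (Real.exp_pos _).le) (mem_univ i)
    linarith
  | node i0 y l r ihl ihr =>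
    intro k z e hT hk hz he
    obtain ⟨hy, hl, hr⟩ := hT
    simp only [BT.depth] at hk
    set z' := Function.update z k y with hz'
    have hz1 : ∀ j, j < k + 1 → ‖z' j‖ ≤ 1 := by
      intro j hj
      by_cases h : j = k
      · rw [h, hz', Function.update_self]; exact hy
      · rw [hz', Function.update_of_ne h]; exact hz j (by omega)
    have he1 : ∀ s : ℝ, |s| ≤ 1 → ∀ j, |Function.update e k s j| ≤ 1 := by
      intro s hs j
      by_cases h : j = k
      · rw [h, Function.update_self]; exact hs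
      · rw [Function.update_of_ne h]; exact he j
    have hx : ∀ s : ℝ, ∑ j ∈ range (k + 1), Function.update e k s j • z' j
        = ∑ j ∈ range k, e j • z j + s • y := by
      intro s
      rw [sum_range_succ, Function.update_self, hz', Function.update_self]
      congr 1
      apply sum_congr rfl
      intro j hj
      have : j ≠ k := (mem_range.mp hj).ne
      rw [Function.update_of_ne this, Function.update_of_ne this]
    have hS : ∀ (s : ℝ) i, ∑ j ∈ range (k + 1), Function.update e k s j * w i z' j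
        = ∑ j ∈ range k, e j * w i z j + s * w i z' k := by
      intro s i
      rw [sum_range_succ, Function.update_self]
      congr 1
      apply sum_congr rfl
      intro j hj
      have hj' := mem_range.mp hj
      rw [Function.update_of_ne hj'.ne, hw2 i z' z j]
      intro j' hj''
      rw [hz', Function.update_of_ne (by omega)]
    have h1 := ihl (k + 1) z' _ hl (by omega) hz1 (he1 1 (by simp))
    have h2 := ihr (k + 1) z' _ hr (by omega) hz1 (he1 (-1) (by simp))
    rw [hx] at h1 h2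
    simp only [hS, one_smul, neg_smul, ← sub_eq_add_neg] at h1 h2
    set P := ∑ i, Real.exp (lam * ∑ j ∈ range k, e j * w i z j) with hP
    set P1 := ∑ i, Real.exp (lam * (∑ j ∈ range k, e j * w i z j + 1 * w i z' k)) with hP1
    set P2 := ∑ i, Real.exp (lam * (∑ j ∈ range k, e j * w i z j + -1 * w i z' k)) with hP2
    have pP : 0 < P := sum_pos (fun _ _ => Real.exp_pos _) univ_nonempty
    have pP1 : 0 < P1 := sum_pos (fun _ _ => Real.exp_pos _) univ_nonempty
    have pP2 : 0 < P2 := sum_pos (fun _ _ => Real.exp_pos _) univ_nonempty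
    have h3 : (P1 + P2) / 2 ≤ P * Real.exp (lam ^ 2 / 2) := by
      rw [hP1, hP2, hP, ← sum_add_distrib, sum_div, sum_mul]
      apply sum_le_sum
      intro i _
      have h4 := Real.cosh_le_exp_half_sq (lam * w i z' k)
      have h5 : (lam * w i z' k) ^ 2 / 2 ≤ lam ^ 2 / 2 := by
        have : (w i z' k) ^ 2 ≤ 1 := by
          rw [← sq_abs]; exact pow_le_one₀ (abs_nonneg _) (hw1 _ _ _)
        rw [mul_pow]
        have : 0 ≤ lam ^ 2 := by positivity
        nlinarith
      have h6 := h4.trans (Real.exp_le_exp.mpr h5)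
      rw [Real.cosh_eq] at h6
      rw [mul_add, mul_add, Real.exp_add, Real.exp_add, ← mul_add, mul_div_assoc]
      apply mul_le_mul_of_nonneg_left _ (Real.exp_pos _).le
      rw [one_mul, neg_one_mul, mul_neg]
      exact h6
    have h7 : Real.log P1 + Real.log P2 ≤ 2 * (Real.log P + lam ^ 2 / 2) := by
      have e1 : Real.log P + lam ^ 2 / 2 = Real.log (P * Real.exp (lam ^ 2 / 2)) := by
        rw [Real.log_mul pP.ne' (Real.exp_pos _).ne', Real.log_exp]
      have e2 : 2 * Real.log (P * Real.exp (lam ^ 2 / 2))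
          = Real.log ((P * Real.exp (lam ^ 2 / 2)) ^ 2) := by
        rw [Real.log_pow]; norm_num
      rw [e1, e2, ← Real.log_mul pP1.ne' pP2.ne']
      apply Real.log_le_log (mul_pos pP1 pP2)
      have : ((P1 + P2) / 2) ^ 2 ≤ (P * Real.exp (lam ^ 2 / 2)) ^ 2 := by gcongr
      nlinarith [sq_nonneg (P1 - P2)]
    have h8 : Real.log P1 / lam + Real.log P2 / lam ≤ 2 * (Real.log P / lam) + lam := by
      rw [← add_div, div_le_iff₀ hlam, add_mul, mul_assoc, div_mul_cancel₀ _ hlam.ne']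
      nlinarith
    have d1 : lam * (l.depth : ℝ) ≤ lam * (max l.depth r.depth : ℕ) :=
      mul_le_mul_of_nonneg_left (by exact_mod_cast le_max_left _ _) hlam.le
    have d2 : lam * (r.depth : ℝ) ≤ lam * (max l.depth r.depth : ℕ) :=
      mul_le_mul_of_nonneg_left (by exact_mod_cast le_max_right _ _) hlam.le
    simp only [BT.val, BT.depth, Nat.cast_add, Nat.cast_one]
    linarith

/-- sublinear growth of bounded dyadic martingales -/
theorem sublinear (F : Set (X → ℝ)) (hlin : ∀ f ∈ F, IsLinearMap ℝ f)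
    (hbd : ∀ f ∈ F, ∀ z, ‖z‖ ≤ 1 → |f z| ≤ 1)
    (hnorm : ∀ x, ∀ η : ℝ, 0 < η → ∃ f ∈ F, ‖x‖ ≤ f x + η)
    (hno : ∀ θ : ℝ, 0 < θ → ∃ η, 0 < η ∧ η ≤ θ ∧ ∃ m, ¬ FThresh F {z | ‖z‖ ≤ 1} θ η m)
    (δ : ℝ) (hδ : 0 < δ) : ∃ n : ℕ, 1 ≤ n ∧ ∀ T : BT X, T.adm (fun _ y => ‖y‖ ≤ 1) →
      T.depth ≤ n → T.val (fun _ _ => 0) 0 ≤ δ * n := by
  obtain ⟨η, hη, hηθ, m, hm⟩ := hno (δ / 4) (by positivity)
  obtain ⟨d, hd⟩ := online_cover F {z | ‖z‖ ≤ 1} hbd (by positivity) hη m hm
  obtain ⟨n, hn1, hn⟩ : ∃ n : ℕ, 1 ≤ n ∧ d * Real.log (n + 2) ≤ δ ^ 2 / 8 * n := by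
    have h1 := Real.isLittleO_log_id_atTop.bound (c := δ ^ 2 / (24 * (d + 1))) (by positivity)
    have h2 : Filter.Tendsto (fun n : ℕ => (n : ℝ) + 2) Filter.atTop Filter.atTop :=
      Filter.tendsto_atTop_add_const_right _ _ tendsto_natCast_atTop_atTop
    obtain ⟨n, h3, h4⟩ := ((h2.eventually h1).and (Filter.eventually_ge_atTop 1)).exists
    refine ⟨n, h4, ?_⟩
    have hn : (1 : ℝ) ≤ n := by exact_mod_cast h4
    have h5 : 0 ≤ Real.log (n + 2) := Real.log_nonneg (by linarith)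
    simp only [id, Real.norm_eq_abs] at h3
    rw [abs_of_nonneg h5, abs_of_nonneg (by linarith)] at h3
    have h6 : ((d : ℝ) + 1) * Real.log (n + 2) ≤ δ ^ 2 / 24 * (n + 2) := by
      calc _ ≤ ((d : ℝ) + 1) * (δ ^ 2 / (24 * (d + 1)) * (n + 2)) := by gcongr
        _ = _ := by field_simp
    have h7 : 0 ≤ δ ^ 2 := by positivity
    nlinarith
  obtain ⟨ι, _, _, hι, w, hw1, hw2, hw3⟩ := hd n
  refine ⟨n, hn1, fun T hT hdep => ?_⟩
  have h := massart F hlin hnorm n (δ / 4 + η) (δ / 2) (by positivity) (by positivity) w hw1 hw2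
    hw3 T 0 (fun _ => 0) (fun _ => 0) hT (by omega) (by simp) (by simp)
  simp only [range_zero, sum_empty, mul_zero, Real.exp_zero] at h
  rw [sum_const, card_univ, nsmul_eq_mul, mul_one] at h
  have h1 : Real.log (Fintype.card ι) ≤ d * Real.log (n + 2) := by
    rw [← Real.log_pow]
    apply Real.log_le_log (by positivity)
    exact_mod_cast hι
  have h2 : Real.log (Fintype.card ι) / (δ / 2) ≤ δ / 4 * n := by
    rw [div_le_iff₀ (by positivity)]; nlinarith
  have h3 : (T.depth : ℝ) ≤ n := by exact_mod_cast hdep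
  have h4 : (0 : ℝ) ≤ n := by positivity
  nlinarith

omit [NormedSpace ℝ X] in
theorem val_le_depth (T : BT X) : ∀ x, T.adm (fun _ y => ‖y‖ ≤ 1) →
    T.val (fun _ _ => 0) x ≤ ‖x‖ + T.depth := by
  induction T with
  | leaf => intro x _; simp [BT.val, BT.depth]
  | node i y l r ihl ihr =>
    intro x h
    have h1 := ihl (x + y) h.2.1
    have h2 := ihr (x - y) h.2.2
    have h3 := norm_add_le x y
    have h4 := norm_sub_le x y
    have h5 : ‖y‖ ≤ 1 := h.1
    have d1 : (l.depth : ℝ) ≤ (max l.depth r.depth : ℕ) := by exact_mod_cast le_max_left _ _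
    have d2 : (r.depth : ℝ) ≤ (max l.depth r.depth : ℕ) := by exact_mod_cast le_max_right _ _
    simp only [BT.val, BT.depth, Nat.cast_add, Nat.cast_one]
    linarith

omit [NormedSpace ℝ X] in
theorem block_bound {δ : ℝ} (hδ : 0 ≤ δ) {n : ℕ} (hn : 1 ≤ n)
    (h : ∀ T : BT X, T.adm (fun _ y => ‖y‖ ≤ 1) → T.depth ≤ n → T.val (fun _ _ => 0) 0 ≤ δ * n)
    (T : BT X) (hT : T.adm (fun _ y => ‖y‖ ≤ 1)) : T.val (fun _ _ => δ) 0 ≤ δ * n := by
  let s : ℕ → X → Set ℝ := fun m x =>
    {v | ∃ T : BT X, T.adm (fun _ y => ‖y‖ ≤ 1) ∧ T.depth ≤ m ∧ v = T.val (fun _ _ => 0) x}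
  have hne : ∀ m x, (s m x).Nonempty := fun m x => ⟨_, BT.leaf, trivial, Nat.zero_le _, rfl⟩
  have hbdd : ∀ m x, BddAbove (s m x) := by
    intro m x
    refine ⟨‖x‖ + m, ?_⟩
    rintro _ ⟨T, h1, h2, rfl⟩
    have := val_le_depth T x h1
    have : (T.depth : ℝ) ≤ m := by exact_mod_cast h2
    linarith
  have hlow : ∀ m x, ‖x‖ ≤ sSup (s m x) := fun m x =>
    le_csSup (hbdd m x) ⟨BT.leaf, trivial, Nat.zero_le _, rfl⟩
  have hstep : ∀ m x y, ‖y‖ ≤ 1 → sSup (s m (x + y)) + sSup (s m (x - y))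
      ≤ 2 * sSup (s (m + 1) x) := by
    intro m x y hy
    apply sSup_add_le (hne _ _) (hne _ _)
    rintro _ ⟨l, hl, dl, rfl⟩ _ ⟨r, hr, dr, rfl⟩
    have := le_csSup (hbdd (m + 1) x) ⟨BT.node 0 y l r, ⟨hy, hl, hr⟩,
      by simp only [BT.depth]; omega, rfl⟩
    simp only [BT.val] at this
    linarith
  have hn0 : sSup (s n 0) ≤ δ * n := by
    apply csSup_le (hne _ _)
    rintro _ ⟨T, h1, h2, rfl⟩
    exact h T h1 h2
  obtain ⟨n', rfl⟩ : ∃ n', n = n' + 1 := ⟨n - 1, by omega⟩
  have key : ∀ T : BT X, T.adm (fun _ y => ‖y‖ ≤ 1) → ∀ (m : ℕ) (u v : X), m ≤ n' →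
      T.val (fun _ _ => δ) (u + v) ≤ ‖u‖ + sSup (s m v) + δ * ((n' : ℝ) - m) := by
    intro T
    induction T with
    | leaf =>
      intro _ m u v hm
      have h1 := hlow m v
      have h2 := norm_add_le u v
      have h3 : (m : ℝ) ≤ n' := by exact_mod_cast hm
      have h4 : 0 ≤ δ * ((n' : ℝ) - m) := mul_nonneg hδ (by linarith)
      simp only [BT.val]
      linarith
    | node i y l r ihl ihr =>
      intro hT m u v hm
      obtain ⟨hy, hl, hr⟩ := hT
      simp only [BT.val]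
      cases m with
      | zero =>
        have h1 := ihl hl n' (u + v) (0 + y) le_rfl
        have h2 := ihr hr n' (u + v) (0 - y) le_rfl
        have h3 := hstep n' 0 y hy
        have h4 := hlow 0 v
        have h5 := norm_add_le u v
        rw [zero_add] at h1 h3
        rw [show u + v + (0 - y) = u + v - y by abel] at h2
        push_cast at hn0 ⊢
        linarith
      | succ m =>
        have h1 := ihl hl m u (v + y) (by omega)
        have h2 := ihr hr m u (v - y) (by omega)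
        have h3 := hstep m v y hy
        rw [← add_assoc] at h1
        rw [← add_sub_assoc] at h2
        push_cast
        linarith
  have h1 := key T hT 0 0 0 (Nat.zero_le _)
  have h2 : sSup (s 0 0) ≤ 0 := by
    apply csSup_le (hne _ _)
    rintro _ ⟨T, h1, h2, rfl⟩
    have := val_le_depth T 0 h1
    have h3 : T.depth = 0 := by omega
    simpa [h3] using this
  simp only [add_zero, norm_zero, zero_add, Nat.cast_zero, sub_zero] at h1
  push_cast
  linarith

theorem single_scale {δ a : ℝ} (hδ : 0 < δ) (ha : 0 < a) {n : ℕ} (hn : 1 ≤ n)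
    (h : ∀ T : BT X, T.adm (fun _ y => ‖y‖ ≤ 1) → T.depth ≤ n → T.val (fun _ _ => 0) 0 ≤ δ * n) :
    ∃ (G : X → ℝ) (ε : ℝ), 0 < ε ∧ NearNorm G a ∧
      ∀ y, ‖y‖ ≤ ε → ∀ x, G (x + y) + G (x - y) ≤ 2 * G x + 2 * (δ * ‖y‖) := by
  obtain ⟨G, hG, hs⟩ := tree_sup (fun _ _ => δ) (fun _ (y : X) => ‖y‖ ≤ 1) (δ * n)
    (block_bound hδ.le hn h)
  have hs' : ∀ y, ‖y‖ ≤ 1 → ∀ x, G (x + y) + G (x - y) ≤ 2 * G x + 2 * (δ * ‖y‖) := by
    intro y hy x
    by_cases h0 : y = 0
    · simp [h0, two_mul]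
    have hpos : 0 < ‖y‖ := norm_pos_iff.mpr h0
    have h1 := hs 0 (‖y‖⁻¹ • y) (by rw [norm_smul, norm_inv, norm_norm, inv_mul_cancel₀ hpos.ne']) x
    have h2 := hG.convex (1 - ‖y‖) ‖y‖ (by linarith) hpos.le (by ring) x (x + ‖y‖⁻¹ • y)
    have h3 := hG.convex (1 - ‖y‖) ‖y‖ (by linarith) hpos.le (by ring) x (x - ‖y‖⁻¹ • y)
    have e1 : (1 - ‖y‖) • x + ‖y‖ • (x + ‖y‖⁻¹ • y) = x + y := by
      rw [smul_add, smul_smul, mul_inv_cancel₀ hpos.ne', one_smul, sub_smul, one_smul]; abel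
    have e2 : (1 - ‖y‖) • x + ‖y‖ • (x - ‖y‖⁻¹ • y) = x - y := by
      rw [smul_sub, smul_smul, mul_inv_cancel₀ hpos.ne', one_smul, sub_smul, one_smul]; abel
    rw [e1] at h2
    rw [e2] at h3
    have h4 := mul_le_mul_of_nonneg_left h1 hpos.le
    nlinarith
  have hn' : (0 : ℝ) < n := by exact_mod_cast hn
  set ε := a / (δ * n) with hε
  have hε0 : 0 < ε := by positivity
  have hnorm : ∀ x : X, ε * ‖ε⁻¹ • x‖ = ‖x‖ := by
    intro x
    rw [norm_smul, norm_inv, Real.norm_of_nonneg hε0.le, ← mul_assoc, mul_inv_cancel₀ hε0.ne',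
      one_mul]
  refine ⟨fun x => ε * G (ε⁻¹ • x), ε, hε0, ⟨?_, ?_, ?_, ?_, ?_⟩, ?_⟩
  · intro x; simp only [smul_neg, hG.even]
  · intro s t hs ht hst x x'
    have := mul_le_mul_of_nonneg_left (hG.convex s t hs ht hst (ε⁻¹ • x) (ε⁻¹ • x')) hε0.le
    rw [smul_add, smul_comm ε⁻¹ s, smul_comm ε⁻¹ t]
    linarith
  · intro x x'
    have := mul_le_mul_of_nonneg_left (hG.lip (ε⁻¹ • x) (ε⁻¹ • x')) hε0.le
    rw [← smul_sub, mul_add, hnorm] at this
    exact this
  · intro x
    have := mul_le_mul_of_nonneg_left (hG.lower (ε⁻¹ • x)) hε0.le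
    rwa [hnorm] at this
  · intro x
    have := mul_le_mul_of_nonneg_left (hG.upper (ε⁻¹ • x)) hε0.le
    rw [mul_add, hnorm] at this
    have e : ε * (δ * n) = a := by rw [hε]; field_simp
    rwa [e] at this
  · intro y hy x
    have h1 : ‖ε⁻¹ • y‖ ≤ 1 := by
      have := hnorm y
      nlinarith
    have := mul_le_mul_of_nonneg_left (hs' _ h1 (ε⁻¹ • x)) hε0.le
    have h2 := hnorm y
    simp only [smul_add, smul_sub]
    rw [← h2]
    linarith

theorem multi_scale
    (h : ∀ δ : ℝ, 0 < δ → ∃ n : ℕ, 1 ≤ n ∧ ∀ T : BT X, T.adm (fun _ y => ‖y‖ ≤ 1) →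
      T.depth ≤ n → T.val (fun _ _ => 0) 0 ≤ δ * n) :
    ∃ G : X → ℝ, NearNorm G 1 ∧ ∀ δ : ℝ, 0 < δ → ∃ ε : ℝ, 0 < ε ∧
      ∀ y, ‖y‖ ≤ ε → ∀ x, G (x + y) + G (x - y) ≤ 2 * G x + 2 * (δ * ‖y‖) := by
  classical
  have : ∀ i : ℕ, ∃ (G : X → ℝ) (ε : ℝ), 0 < ε ∧ NearNorm G ((1 / 2) ^ (i + 1)) ∧
      ∀ y, ‖y‖ ≤ ε → ∀ x, G (x + y) + G (x - y) ≤ 2 * G x + 2 * (1 / ((i : ℝ) + 1) * ‖y‖) := by
    intro i
    obtain ⟨n, hn, h'⟩ := h (1 / ((i : ℝ) + 1)) (by positivity)
    exact single_scale (by positivity) (by positivity) hn h'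
  choose G ε hε hG hs using this
  have key : ∀ (J : ℕ) (T : BT X), T.adm (fun i y => ‖y‖ ≤ ε i) → T.lab ≤ J → ∀ u : ℕ → X,
      T.val (fun i y => 1 / ((i : ℝ) + 1) * ‖y‖) (∑ j ∈ range J, u j)
        ≤ ∑ j ∈ range J, G j (u j) := by
    intro J T
    induction T with
    | leaf =>
      intro _ _ u
      exact (norm_sum_le _ _).trans (sum_le_sum (fun j _ => (hG j).lower _))
    | node i y l r ihl ihr =>
      intro hT hJ u
      obtain ⟨hy, hl, hr⟩ := hT
      simp only [BT.lab] at hJ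
      have hi : i ∈ range J := mem_range.mpr (by omega)
      have e1 : ∀ v, ∑ j ∈ range J, Function.update u i (u i + v) j = ∑ j ∈ range J, u j + v := by
        intro v
        rw [sum_update_of_mem hi, ← add_sum_erase _ _ hi, sdiff_singleton_eq_erase]; abel
      have e2 : ∀ v, ∑ j ∈ range J, G j (Function.update u i v j)
          = G i v + ∑ j ∈ (range J).erase i, G j (u j) := by
        intro v
        rw [← add_sum_erase _ _ hi, Function.update_self]
        congr 1
        exact sum_congr rfl (fun j hj => by rw [Function.update_of_ne (ne_of_mem_erase hj)])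
      have h1 := ihl hl (by omega) (Function.update u i (u i + y))
      have h2 := ihr hr (by omega) (Function.update u i (u i + -y))
      rw [e1, e2] at h1 h2
      rw [← sub_eq_add_neg, ← sub_eq_add_neg] at h2
      have h3 := hs i y hy (u i)
      rw [← add_sum_erase _ (fun j => G j (u j)) hi]
      simp only [BT.val]
      linarith
  obtain ⟨F, hF, hFs⟩ := tree_sup (fun i (y : X) => 1 / ((i : ℝ) + 1) * ‖y‖)
    (fun i y => ‖y‖ ≤ ε i) 1 (by
      intro T hT
      have h1 := key T.lab T hT le_rfl (fun _ => 0)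
      simp only [sum_const_zero] at h1
      refine h1.trans ?_
      have h2 : ∀ J : ℕ, ∑ j ∈ range J, G j 0 ≤ 1 - (1 / 2) ^ J := by
        intro J
        induction J with
        | zero => simp
        | succ J ih =>
          have := (hG J).upper 0
          rw [norm_zero, zero_add] at this
          rw [sum_range_succ]
          rw [pow_succ] at this ⊢
          linarith
      have h3 : (0 : ℝ) ≤ (1 / 2) ^ T.lab := by positivity
      linarith [h2 T.lab])
  refine ⟨F, hF, fun δ hδ => ?_⟩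
  obtain ⟨i, hi⟩ := exists_nat_one_div_lt hδ
  refine ⟨ε i, hε i, fun y hy x => ?_⟩
  have := hFs i y hy x
  have h2 : 1 / ((i : ℝ) + 1) * ‖y‖ ≤ δ * ‖y‖ := mul_le_mul_of_nonneg_right hi.le (norm_nonneg _)
  linarith

end Vale.Agent.P125
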